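import Vale.Agent.P267.H399.Calc
import Vale.Agent.P267.H877.Setup

/-!
# P267 / XA-T2 (helper306): linear algebra and locality of `Reg`, `∂̄`; test sections
-/

set_option linter.unusedVariables false
set_option linter.unusedSectionVars false

open scoped Manifold ContDiff ComplexConjugate Matrix ComplexOrder Topology
open MeasureTheory Set Filter

noncomputable section

namespace Vale.Agent.P267.H306

open FL XT

variable {M : Type} [TopologicalSpace M] [ChartedSpace C2 M]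
variable {V : Type*} [NormedAddCommGroup V] [NormedSpace ℂ V]

/-! ### linearity of the local expressions -/

theorem loc0_add (κ : ℤ) (e : Ch M) (s t : M → V) :
    loc0 κ e (s + t) = loc0 κ e s + loc0 κ e t := by
  funext z; simp [loc0]

theorem loc0_smul (κ : ℤ) (e : Ch M) (c : ℂ) (s : M → V) :
    loc0 κ e (c • s) = c • loc0 κ e s := by
  funext z; simp only [loc0, Pi.smul_apply]; rw [smul_comm]

theorem loc0_zero (κ : ℤ) (e : Ch M) : loc0 κ e (0 : M → V) = 0 := by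
  funext z; simp [loc0]

theorem loc1_add (κ : ℤ) (e : Ch M) (s t : M → Fin 2 → V) :
    loc1 κ e (s + t) = loc1 κ e s + loc1 κ e t := by
  funext z i; simp only [loc1, Pi.add_apply, Fin.sum_univ_two]; module

theorem loc1_smul (κ : ℤ) (e : Ch M) (c : ℂ) (s : M → Fin 2 → V) :
    loc1 κ e (c • s) = c • loc1 κ e s := by
  funext z i; simp only [loc1, Pi.smul_apply, Fin.sum_univ_two]; module

theorem loc1_zero (κ : ℤ) (e : Ch M) : loc1 κ e (0 : M → Fin 2 → V) = 0 := by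
  funext z i; simp [loc1]

theorem loc2_add (κ : ℤ) (e : Ch M) (s t : M → V) :
    loc2 κ e (s + t) = loc2 κ e s + loc2 κ e t := by
  funext z; simp [loc2]

theorem loc2_smul (κ : ℤ) (e : Ch M) (c : ℂ) (s : M → V) :
    loc2 κ e (c • s) = c • loc2 κ e s := by
  funext z; simp only [loc2, Pi.smul_apply]; module

theorem loc2_zero (κ : ℤ) (e : Ch M) : loc2 κ e (0 : M → V) = 0 := by
  funext z; simp [loc2]

theorem reg0_add {n : WithTop ℕ∞} {κ : ℤ} {s t : M → V} (hs : Reg0 n κ s) (ht : Reg0 n κ t) :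
    Reg0 n κ (s + t) := fun e he => by rw [loc0_add]; exact (hs e he).add (ht e he)

theorem reg0_smul {n : WithTop ℕ∞} {κ : ℤ} {s : M → V} (c : ℂ) (hs : Reg0 n κ s) :
    Reg0 n κ (c • s) := fun e he => by
  rw [loc0_smul]; exact (hs e he).const_smul c

theorem reg0_zero {n : WithTop ℕ∞} {κ : ℤ} : Reg0 n κ (0 : M → V) := fun e he => by
  rw [loc0_zero]; exact contDiffOn_const

theorem reg1_add {n : WithTop ℕ∞} {κ : ℤ} {s t : M → Fin 2 → V} (hs : Reg1 n κ s)
    (ht : Reg1 n κ t) : Reg1 n κ (s + t) := fun e he => by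
  rw [loc1_add]; exact (hs e he).add (ht e he)

theorem reg1_smul {n : WithTop ℕ∞} {κ : ℤ} {s : M → Fin 2 → V} (c : ℂ) (hs : Reg1 n κ s) :
    Reg1 n κ (c • s) := fun e he => by
  rw [loc1_smul]; exact (hs e he).const_smul c

theorem reg1_zero {n : WithTop ℕ∞} {κ : ℤ} : Reg1 n κ (0 : M → Fin 2 → V) := fun e he => by
  rw [loc1_zero]; exact contDiffOn_const

theorem reg2_add {n : WithTop ℕ∞} {κ : ℤ} {s t : M → V} (hs : Reg2 n κ s) (ht : Reg2 n κ t) :
    Reg2 n κ (s + t) := fun e he => by rw [loc2_add]; exact (hs e he).add (ht e he)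

theorem reg2_smul {n : WithTop ℕ∞} {κ : ℤ} {s : M → V} (c : ℂ) (hs : Reg2 n κ s) :
    Reg2 n κ (c • s) := fun e he => by
  rw [loc2_smul]; exact (hs e he).const_smul c

theorem reg2_zero {n : WithTop ℕ∞} {κ : ℤ} : Reg2 n κ (0 : M → V) := fun e he => by
  rw [loc2_zero]; exact contDiffOn_const

/-! ### locality -/

theorem comap_symm {e : Ch M} {x : M} (hx : x ∈ e.source) {p : M → Prop} (h : ∀ᶠ y in 𝓝 x, p y) :
    ∀ᶠ z in 𝓝 (e x), p (e.symm z) := by
  have h1 : Tendsto e.symm (𝓝 (e x)) (𝓝 x) := by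
    have := (e.continuousAt_symm (e.map_source hx))
    rwa [ContinuousAt, e.left_inv hx] at this
  exact h1.eventually h

theorem loc0_congr {κ : ℤ} {e : Ch M} {x : M} (hx : x ∈ e.source) {s t : M → V}
    (h : s =ᶠ[𝓝 x] t) : loc0 κ e s =ᶠ[𝓝 (e x)] loc0 κ e t := by
  filter_upwards [comap_symm hx h] with z hz
  simp only [loc0]
  rw [hz]

theorem loc1_congr {κ : ℤ} {e : Ch M} {x : M} (hx : x ∈ e.source) {s t : M → Fin 2 → V}
    (h : s =ᶠ[𝓝 x] t) : loc1 κ e s =ᶠ[𝓝 (e x)] loc1 κ e t := by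
  filter_upwards [comap_symm hx h] with z hz
  funext i
  simp only [loc1]
  rw [hz]

theorem loc2_congr {κ : ℤ} {e : Ch M} {x : M} (hx : x ∈ e.source) {s t : M → V}
    (h : s =ᶠ[𝓝 x] t) : loc2 κ e s =ᶠ[𝓝 (e x)] loc2 κ e t := by
  filter_upwards [comap_symm hx h] with z hz
  simp only [loc2]
  rw [hz]

theorem dbar0_congr {κ : ℤ} {x : M} {s t : M → V} (h : s =ᶠ[𝓝 x] t) :
    dbar0 κ s x = dbar0 κ t x := by
  funext i
  exact dzb_congr (loc0_congr (mem_chart_source C2 x) h) i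

theorem dbar0_congr_ev {κ : ℤ} {x : M} {s t : M → V} (h : s =ᶠ[𝓝 x] t) :
    dbar0 κ s =ᶠ[𝓝 x] dbar0 κ t := by
  filter_upwards [h.eventuallyEq_nhds] with y hy
  exact dbar0_congr hy

theorem dbar1_congr {κ : ℤ} {x : M} {s t : M → Fin 2 → V} (h : s =ᶠ[𝓝 x] t) :
    dbar1 κ s x = dbar1 κ t x := by
  have h1 := loc1_congr (κ := κ) (mem_chart_source C2 x) h
  simp only [dbar1]
  congr 1
  · exact dzb_congr (by filter_upwards [h1] with z hz; rw [hz]) 0
  · exact dzb_congr (by filter_upwards [h1] with z hz; rw [hz]) 1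

section mfd

variable [IsManifold 𝓘(ℂ, C2) ω M]

theorem Reg0.diffAt {n : WithTop ℕ∞} (hn : n ≠ 0) {κ : ℤ} {s : M → V} (hs : Reg0 n κ s)
    {e : Ch M} (he : e ∈ atlas C2 M) {z : C2} (hz : z ∈ e.target) :
    DifferentiableAt ℝ (loc0 κ e s) z :=
  (hs.contDiffAt he hz).differentiableAt hn

theorem dbar0_add {n : WithTop ℕ∞} (hn : n ≠ 0) {κ : ℤ} {s t : M → V} (hs : Reg0 n κ s)
    (ht : Reg0 n κ t) : dbar0 κ (s + t) = dbar0 κ s + dbar0 κ t := by
  funext x i
  simp only [dbar0, Pi.add_apply, loc0_add]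
  exact dzb_add (Reg0.diffAt hn hs (chart_mem_atlas C2 x) (mem_chart_target C2 x))
    (Reg0.diffAt hn ht (chart_mem_atlas C2 x) (mem_chart_target C2 x)) i

theorem dbar0_smul {n : WithTop ℕ∞} (hn : n ≠ 0) {κ : ℤ} {s : M → V} (c : ℂ)
    (hs : Reg0 n κ s) : dbar0 κ (c • s) = c • dbar0 κ s := by
  funext x i
  simp only [dbar0, Pi.smul_apply, loc0_smul]
  exact dzb_const_smul c (Reg0.diffAt hn hs (chart_mem_atlas C2 x) (mem_chart_target C2 x)) i

theorem reg1_dbar0 {κ : ℤ} {s : M → V} (hs : Reg0 ∞ κ s) : Reg1 ∞ κ (dbar0 κ s) := by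
  intro e he
  have h1 : ∀ i, ContDiffOn ℝ ∞ (fun z => loc1 κ e (dbar0 κ s) z i) e.target := by
    intro i
    have h2 : ContDiffOn ℝ ∞ (fun z => dzb i (loc0 κ e s) z) e.target :=
      contDiffOn_dzb e.open_target (hs e he) (by simp) i
    refine h2.congr fun z hz => ?_
    exact loc1_dbar0 he hz (Reg0.diffAt (by simp) hs he hz) i
  exact contDiffOn_pi.2 h1

end mfd

end Vale.Agent.P267.H306
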