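import Vale.Agent.P267.H306.Vol

/-!
# P267 / XA-T2 (helper306): the functionals of degree 2
-/

set_option linter.unusedVariables false
set_option linter.unusedSectionVars false

open scoped Manifold ContDiff ComplexConjugate Matrix ComplexOrder Topology
open MeasureTheory Set Filter

noncomputable section

namespace Vale.Agent.P267.H306

open FL XT

variable {M : Type} [TopologicalSpace M] [ChartedSpace C2 M] {D : XTData M}
variable {ι : Type} [Fintype ι] [DecidableEq ι]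
variable [IsManifold 𝓘(ℂ, C2) ω M] [T2Space M]

theorem reg2_pr {n : WithTop ℕ∞} {κ : ℤ} {r φ : M → EuclideanSpace ℂ ι} (hr : Reg2 n 0 r)
    (hφ : Reg0 n κ φ) : Reg2 n κ (pr r φ) := by
  rw [reg2_iff_at]
  intro x
  have := At2.bilin' (B := bpL (ι := ι)) (hr.at x) (hφ.at x)
  rw [zero_add] at this
  exact this

theorem compact_pr (r : M → EuclideanSpace ℂ ι) {φ : M → EuclideanSpace ℂ ι}
    (hφ : HasCompactSupport φ) : HasCompactSupport (pr r φ) :=
  hφ.mono fun x hx h0 => hx (by simp only [pr, h0, bp_zero_right])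

/-- `φ ↦ ∫ r ∧ φ` -/
def gfun (L : LB M ι) {r : M → EuclideanSpace ℂ ι} (hr : Reg2 ∞ 0 r) : Test0 L 1 →ₗ[ℂ] ℂ where
  toFun φ := intX (pr r φ)
  map_add' φ ψ := by
    have h := H533.intX_add (reg2_pr hr φ.2.1).locInt (compact_pr r φ.2.2.2)
      (reg2_pr hr ψ.2.1).locInt (compact_pr r ψ.2.2.2)
    rw [← h]
    congr 1
    exact pr_add r _ _
  map_smul' c φ := by
    have h := H533.intX_const_mul (reg2_pr hr φ.2.1).locInt (compact_pr r φ.2.2.2) c
    rw [RingHom.id_apply, smul_eq_mul, ← h]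
    congr 1
    exact pr_smul r _ c

@[simp] theorem gfun_apply (L : LB M ι) {r : M → EuclideanSpace ℂ ι} (hr : Reg2 ∞ 0 r)
    (φ : Test0 L 1) : gfun L hr φ = intX (pr r φ) := rfl

/-- profile of the pairing -/
theorem prof_pr_le {r φ : M → EuclideanSpace ℂ ι} (hr : Reg2 0 0 r) (hφ : Reg0 0 1 φ)
    {c : M → ℝ} (hc0 : ∀ x, 0 ≤ c x) (hc1 : ∀ x, c x ≤ 1) (j : ℤ) :
    D.prof (n2 D.h 1 fun x => (c x : ℂ) * pr r φ x) j ≤ D.p2 0 r j * D.p0 1 φ j := by
  refine D.prof_le (mul_nonneg (p2_nonneg 0 r j) (p0_nonneg 1 φ j)) fun x hx => ?_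
  have h1 : n2 D.h 1 (fun x => (c x : ℂ) * pr r φ x) x = c x * n2 D.h 1 (pr r φ) x := by
    rw [n2, n2, norm_mul, Complex.norm_real, Real.norm_of_nonneg (hc0 x), mul_assoc]
  rw [h1]
  have h2 : n2 D.h 1 (pr r φ) x ≤ n2 D.h 0 r x * n0 D.h 1 φ x :=
    n2_pr_le D.h (dh_pos D.herm) r φ x
  have h3 : n2 D.h 0 r x ≤ D.p2 0 r j := D.le_prof (cn2 hr) hx
  have h4 : n0 D.h 1 φ x ≤ D.p0 1 φ j := D.le_prof (cn0 hφ) hx
  have h5 : 0 ≤ n2 D.h 1 (pr r φ) x := H87.n2_nonneg D.herm.posDef 1 _ x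
  calc c x * n2 D.h 1 (pr r φ) x ≤ 1 * n2 D.h 1 (pr r φ) x :=
        mul_le_mul_of_nonneg_right (hc1 x) h5
    _ ≤ n2 D.h 0 r x * n0 D.h 1 φ x := by rw [one_mul]; exact h2
    _ ≤ D.p2 0 r j * D.p0 1 φ j :=
        mul_le_mul h3 h4 (n0_nonneg 1 φ x) (p2_nonneg 0 r j)

/-! ### the infinite covering -/

theorem norm_gfun_le (L : LB M ι) {r : M → EuclideanSpace ℂ ι} (hr : Reg2 ∞ 0 r) {w : ℤ → ℝ}
    {B : ℝ} (hrB : ∀ j, D.p2 0 r j ≤ B * w j) (φ : Test0 L 1) :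
    ‖gfun L hr φ‖ ≤ 2 * VolC D * B * ∑' j, w j * D.p0 1 (φ : M → EuclideanSpace ℂ ι) j := by
  have h0 : Reg2 0 1 (pr r (φ : M → EuclideanSpace ℂ ι)) :=
    (reg2_pr hr φ.2.1).of_le (by simp)
  refine (norm_intX_le_tsum (D := D) h0 (compact_pr r φ.2.2.2)).trans ?_
  rw [mul_assoc (2 * VolC D)]
  refine mul_le_mul_of_nonneg_left ?_ (mul_nonneg zero_le_two VolC_nonneg)
  rw [← tsum_mul_left]
  obtain ⟨R, hR⟩ := exists_suppIn (D := D) (compact_pr r φ.2.2.2)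
  have hs1 : Summable fun j => D.prof (n2 D.h 1 (pr r (φ : M → EuclideanSpace ℂ ι))) j := by
    have := summable_mul_prof (D := D) (R := R) (n := n2 D.h 1 (pr r φ))
      (fun x hx => by rw [n2, hR x hx]; simp) (H87.n2_nonneg D.herm.posDef 1 _) (fun _ => 1)
    simpa using this
  refine Summable.tsum_le_tsum (fun j => ?_) hs1 ((summable_p0 φ.2.2.2 w).mul_left B)
  have h1 := prof_pr_le (D := D) (r := r) (φ := (φ : M → EuclideanSpace ℂ ι))
    (hr.of_le (by simp)) (φ.2.1.of_le (by simp)) (c := fun _ => 1)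
    (fun _ => zero_le_one) (fun _ => le_rfl) j
  have h2 : (fun x => (((1 : ℝ)) : ℂ) * pr r (φ : M → EuclideanSpace ℂ ι) x) = pr r φ := by
    funext x; simp
  simp only [h2] at h1
  refine h1.trans ?_
  have h3 := mul_le_mul_of_nonneg_right (hrB j)
    (p0_nonneg (D := D) 1 (φ : M → EuclideanSpace ℂ ι) j)
  calc _ ≤ _ := h3
    _ = _ := by ring

/-- **functional on `M`** -/
theorem func_M {L : LB M ι} {a : M → Fin 2 → ℂ} (ha : Reg1 ∞ 0 a) {r : M → EuclideanSpace ℂ ι}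
    (hr : Reg2 ∞ 0 r) {w : ℤ → ℝ} (hw : ∀ j, 0 ≤ w j) {B : ℝ} (hB : 0 ≤ B)
    (hrB : ∀ j, D.p2 0 r j ≤ B * w j) {C : ℝ} (hC : 0 ≤ C) (hT0 : D.T0c 1 L a w C) :
    ∃ A : Test1 L 1 →ₗ[ℂ] ℂ, (∀ φ : Test0 L 1, A (D0 L ha 1 φ) = intX (pr r φ)) ∧
      ∀ η : Test1 L 1, ‖A η‖ ≤ 2 * VolC D * B * C *
        ∑' j, w j * D.p1 1 (η : M → Fin 2 → EuclideanSpace ℂ ι) j := by
  have hV := VolC_nonneg (D := D)
  exact H413.duality (D0 L ha 1) (sem0 D L 1 hw) (sem1 D L 1 hw) (C := C)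
    (M := 2 * VolC D * B) hC (by positivity)
    (fun φ => hT0 φ φ.2.1 φ.2.2.1 φ.2.2.2) (gfun L hr) (norm_gfun_le L hr hrB)

/-! ### `X_m` -/

theorem sum_range_periodic {g : ℤ → ℝ} {m : ℕ} (hg : ∀ j, g (j + m) = g j) :
    ∑ j ∈ Finset.Ico (-(m : ℤ)) m, g j = 2 * ∑ j ∈ Finset.range m, g j := by
  have h1 : ∑ j ∈ Finset.Ico (0 : ℤ) m, g j = ∑ j ∈ Finset.range m, g j := by
    have := Finset.sum_image (s := Finset.range m) (g := fun j : ℕ => (j : ℤ)) (f := g)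
      (fun a _ b _ h => Int.ofNat.inj h)
    rw [← this]
    congr 1
    ext j
    simp only [Finset.mem_Ico, Finset.mem_image, Finset.mem_range]
    constructor
    · rintro ⟨h1, h2⟩; exact ⟨j.toNat, by omega, by omega⟩
    · rintro ⟨k, hk, rfl⟩; omega
  have h2 : ∑ j ∈ Finset.Ico (-(m : ℤ)) 0, g j = ∑ j ∈ Finset.range m, g j := by
    have h3 : ∑ j ∈ Finset.Ico (-(m : ℤ)) 0, g j = ∑ j ∈ Finset.Ico (-(m : ℤ)) 0, g (j + m) :=
      Finset.sum_congr rfl fun j _ => (hg j).symm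
    rw [h3, ← h1]
    refine Finset.sum_nbij' (fun j => j + m) (fun j => j - m) ?_ ?_ ?_ ?_ ?_
    · intro j hj; rw [Finset.mem_Ico] at hj ⊢; omega
    · intro j hj; rw [Finset.mem_Ico] at hj ⊢; omega
    · intro j _; ring
    · intro j _; ring
    · intro j _; rfl
  rw [two_mul, ← Finset.Ico_union_Ico_eq_Ico (show (-(m : ℤ)) ≤ 0 by omega)
    (show (0 : ℤ) ≤ m by omega), Finset.sum_union (Finset.Ico_disjoint_Ico_consecutive _ _ _),
    h1, h2]

/-- cut-off of length `m` -/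
def cutm (D : XTData M) (m : ℕ) (x : M) : ℝ := tent (D.f x / m)

theorem cutm_nonneg (m : ℕ) (x : M) : 0 ≤ cutm D m x := tent_nonneg _
theorem cutm_le_one (m : ℕ) (x : M) : cutm D m x ≤ 1 := tent_le_one _

theorem continuous_cutm (m : ℕ) : Continuous (cutm D m) :=
  continuous_tent.comp (f_continuous.div_const _)

theorem cutm_eq_zero {m : ℕ} (hm : 0 < m) {x : M} (h : (m : ℝ) ≤ |D.f x|) : cutm D m x = 0 := by
  apply tent_eq_zero
  have hm' : (0 : ℝ) < m := by exact_mod_cast hm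
  rw [abs_div, abs_of_pos hm', le_div_iff₀ hm']
  linarith

theorem compact_cutm {m : ℕ} (hm : 0 < m) : HasCompactSupport (cutm D m) := by
  refine (D.f_proper (-(m : ℝ)) m).of_isClosed_subset (isClosed_tsupport _)
    (closure_minimal ?_ (D.f_proper (-(m : ℝ)) m).isClosed)
  intro x hx
  have h : |D.f x| < m := by
    by_contra hc
    exact hx (cutm_eq_zero hm (not_lt.1 hc))
  exact ⟨(abs_lt.1 h).1.le, (abs_lt.1 h).2.le⟩

/-- **unfolding** -/
theorem intX_unfold {m : ℕ} (hm : 0 < m) {μ : ℂ} (hμ : μ ≠ 0) {r φ : M → EuclideanSpace ℂ ι}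
    (hr : Reg2 0 0 r) (hrE : D.Equiv m μ r) (hφ : Reg0 0 1 φ) (hc : HasCompactSupport φ) :
    intX (pr r φ) = intX fun x => (cutm D m x : ℂ) * pr r (per D m μ⁻¹ φ) x := by
  have hm' : (0 : ℤ) < (m : ℤ) := by exact_mod_cast hm
  have hmR : (0 : ℝ) < m := by exact_mod_cast hm
  obtain ⟨R, hR⟩ := exists_suppIn (D := D) hc
  set N : ℤ := m + R + 1 with hN
  have hμ' : μ⁻¹ ≠ 0 := inv_ne_zero hμ
  -- the terms
  set T : ℤ → M → ℂ := fun k x => (cutm D m x : ℂ) * pr r ((μ⁻¹) ^ k • fun y =>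
    φ (D.sh (-((m : ℤ) * k)) y)) x with hT
  have hreg : ∀ k, Reg2 0 1 (T k) := fun k =>
    reg2_cont_mul (Complex.continuous_ofReal.comp (continuous_cutm m))
      (reg2_pr hr (reg0_smul _ ((D.chartMap_sh _).reg0_comp hφ)))
  have hcT : ∀ k, HasCompactSupport (T k) := fun k =>
    (compact_cutm (D := D) hm).mono fun x hx h0 => hx (by
      simp only [hT]
      rw [h0]; simp)
  have h1 : (fun x => (cutm D m x : ℂ) * pr r (per D m μ⁻¹ φ) x) =
      fun x => ∑ k ∈ Finset.Icc (-N) N, T k x := by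
    funext x
    by_cases hx : (m : ℝ) ≤ |D.f x|
    · simp only [hT, cutm_eq_zero hm hx, Complex.ofReal_zero, zero_mul, Finset.sum_const_zero]
    · have hx' : |D.f x| + R ≤ N := by
        rw [hN]; push_cast; linarith [not_le.1 hx]
      simp only [hT, pr]
      rw [per_eq_sum hR hm' μ⁻¹ hx', ← bpL_apply, map_sum, Finset.mul_sum]
      rfl
  have h2 : ∀ k, intX (T k) = intX fun x => (cutm D m (D.sh ((m : ℤ) * k) x) : ℂ) * pr r φ x := by
    intro k
    rw [← intX_sh D ((m : ℤ) * k) (hreg k) (hcT k)]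
    congr 1
    funext x
    simp only [hT, pr, Pi.smul_apply]
    rw [Equiv.zpow hμ hrE k x, D.sh_neg_sh, bp_smul_left, bp_smul_right]
    have : μ ^ k * μ⁻¹ ^ k = 1 := by rw [← mul_zpow, mul_inv_cancel₀ hμ, one_zpow]
    calc _ = (cutm D m (D.sh ((m : ℤ) * k) x) : ℂ) * ((μ ^ k * μ⁻¹ ^ k) * bp (r x) (φ x)) := by
          ring
      _ = _ := by rw [this, one_mul]
  have hprc := compact_pr r hc
  have hprr : Reg2 0 1 (pr r φ) := reg2_pr hr hφ
  set S : ℤ → M → ℂ := fun k x => (cutm D m (D.sh ((m : ℤ) * k) x) : ℂ) * pr r φ x with hS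
  have hSr : ∀ k, Reg2 0 1 (S k) := fun k => reg2_cont_mul (Complex.continuous_ofReal.comp
      ((continuous_cutm m).comp (D.continuous_sh _))) hprr
  have hSc : ∀ k, HasCompactSupport (S k) := fun k => hprc.mul_left
  rw [h1, H533.intX_sum _ (fun k _ => (hreg k).locInt) (fun k _ => hcT k),
    Finset.sum_congr rfl fun k _ => h2 k, ← H533.intX_sum _
    (fun k _ => (hSr k).locInt) (fun k _ => hSc k)]
  congr 1
  funext x
  by_cases hx : (R : ℝ) < |D.f x|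
  · simp [hS, pr, hR x hx]
  · simp only [hS]
    rw [← Finset.sum_mul, ← Complex.ofReal_sum]
    have h3 : ∑ k ∈ Finset.Icc (-N) N, cutm D m (D.sh ((m : ℤ) * k) x) = 1 := by
      have h4 : ∀ k : ℤ, cutm D m (D.sh ((m : ℤ) * k) x) = tent (D.f x / m - ((-k : ℤ) : ℝ)) := by
        intro k
        rw [cutm, D.f_sh]
        congr 1
        push_cast
        field_simp
        ring
      simp only [h4]
      have h5 : ∑ k ∈ Finset.Icc (-N) N, tent (D.f x / m - ((-k : ℤ) : ℝ)) =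
          ∑ k ∈ Finset.Icc (-N) N, tent (D.f x / m - (k : ℝ)) := by
        refine Finset.sum_nbij' (fun k => -k) (fun k => -k) ?_ ?_ ?_ ?_ ?_
        · intro k hk; rw [Finset.mem_Icc] at hk ⊢; omega
        · intro k hk; rw [Finset.mem_Icc] at hk ⊢; omega
        · intro k _; ring
        · intro k _; ring
        · intro k _; rfl
      rw [h5]
      have h6 : |D.f x / m| + 1 ≤ N := by
        rw [abs_div, abs_of_pos hmR]
        have h7 : |D.f x| / m ≤ |D.f x| := by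
          apply div_le_self (abs_nonneg _)
          exact_mod_cast hm
        rw [hN]; push_cast
        linarith [not_lt.1 hx]
      obtain ⟨h8, h9⟩ := floor_mem_Icc h6
      exact tent_sum _ h8 h9
    rw [h3, Complex.ofReal_one, one_mul]

theorem p0_add_period {m : ℤ} {μ : ℂ} {κ : ℤ} {u : M → EuclideanSpace ℂ ι}
    (hu : D.Equiv m μ u) (j : ℤ) : D.p0 κ u (j + m) = ‖μ‖ * D.p0 κ u j := by
  rw [XTData.p0, ← D.prof_comp_sh, XTData.p0, ← prof_smul (norm_nonneg μ)]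
  congr 1
  funext x
  rw [← D.n0_comp_sh]
  have : (fun y => u (D.sh m y)) = μ • u := funext hu
  rw [this, n0_smul]

theorem norm_gfun_le_m (L : LB M ι) {m : ℕ} (hm : 0 < m) {μ : ℂ} (hμ : μ ≠ 0)
    {r : M → EuclideanSpace ℂ ι} (hr : Reg2 ∞ 0 r) (hrE : D.Equiv m μ r) {w : ℤ → ℝ}
    (hwm : ∀ j, w (j + m) = ‖μ‖ * w j) {B : ℝ} (hrB : ∀ j, D.p2 0 r j ≤ B * w j)
    (φ : Test0 L 1) :
    ‖gfun L hr φ‖ ≤ 4 * VolC D * B * ∑ j ∈ Finset.range m,
      w j * D.p0 1 (per D m μ⁻¹ (φ : M → EuclideanSpace ℂ ι)) j := by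
  have hm' : (0 : ℤ) < (m : ℤ) := by exact_mod_cast hm
  set u : M → EuclideanSpace ℂ ι := per D m μ⁻¹ φ with hu
  have huR : Reg0 0 1 u := reg0_per hm' _ φ.2.2.2 (φ.2.1.of_le (by simp))
  have huE : D.Equiv m μ⁻¹ u := equiv_per (inv_ne_zero hμ) _
  have hr0 : Reg2 0 0 r := hr.of_le (by simp)
  rw [gfun_apply, intX_unfold hm hμ hr0 hrE (φ.2.1.of_le (by simp)) φ.2.2.2]
  set b : M → ℂ := fun x => (cutm D m x : ℂ) * pr r u x with hb
  have hbR : Reg2 0 1 b := reg2_cont_mul (Complex.continuous_ofReal.comp (continuous_cutm m))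
    (reg2_pr hr0 huR)
  have hbC : HasCompactSupport b := (compact_cutm (D := D) hm).mono fun x hx h0 => hx (by
    simp only [hb]; rw [h0]; simp)
  refine (norm_intX_le_tsum (D := D) hbR hbC).trans ?_
  have hzero : ∀ j ∉ Finset.Ico (-(m : ℤ)) m, D.prof (n2 D.h 1 b) j = 0 := by
    intro j hj
    refine le_antisymm (D.prof_le le_rfl fun x hx => ?_)
      (D.prof_nonneg (H87.n2_nonneg D.herm.posDef 1 b) j)
    have h1 : (m : ℝ) ≤ |D.f x| := by
      rw [Finset.mem_Ico, not_and_or, not_le, not_lt] at hj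
      rcases hj with h | h
      · have h2 : j + 1 ≤ -(m : ℤ) := h
        have h3 : ((j : ℤ) : ℝ) + 1 ≤ -(m : ℝ) := by exact_mod_cast h2
        have h4 := hx.2
        have h5 := neg_abs_le (D.f x)
        linarith
      · have h3 : (m : ℝ) ≤ (j : ℝ) := by exact_mod_cast h
        exact h3.trans (hx.1.trans (le_abs_self _))
    rw [n2, hb]
    simp only [cutm_eq_zero hm h1, Complex.ofReal_zero, zero_mul, norm_zero, le_refl]
  rw [tsum_eq_sum hzero]
  have hper : ∀ j, w (j + m) * D.p0 1 u (j + m) = w j * D.p0 1 u j := by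
    intro j
    rw [hwm, p0_add_period huE, norm_inv]
    have : ‖μ‖ ≠ 0 := norm_ne_zero_iff.2 hμ
    field_simp
  have h1 : ∑ j ∈ Finset.Ico (-(m : ℤ)) m, D.prof (n2 D.h 1 b) j ≤
      B * (2 * ∑ j ∈ Finset.range m, w j * D.p0 1 u j) := by
    rw [← sum_range_periodic (g := fun j => w j * D.p0 1 u j) hper, Finset.mul_sum]
    refine Finset.sum_le_sum fun j _ => ?_
    refine (prof_pr_le hr0 huR (cutm_nonneg m) (cutm_le_one m) j).trans ?_
    have h3 := mul_le_mul_of_nonneg_right (hrB j) (p0_nonneg (D := D) 1 u j)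
    calc _ ≤ _ := h3
      _ = _ := by ring
  calc 2 * VolC D * ∑ j ∈ Finset.Ico (-(m : ℤ)) m, D.prof (n2 D.h 1 b) j
      ≤ 2 * VolC D * (B * (2 * ∑ j ∈ Finset.range m, w j * D.p0 1 u j)) :=
        mul_le_mul_of_nonneg_left h1 (mul_nonneg zero_le_two VolC_nonneg)
    _ = _ := by ring

/-- period property of the weight -/
theorem wt_zpow {w : ℤ → ℝ} {m : ℤ} {t : ℝ} (ht : t ≠ 0) (hwm : ∀ j, w (j + m) = t * w j)
    (j k : ℤ) : w (j + m * k) = t ^ k * w j := by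
  induction k with
  | zero => simp
  | succ n ih =>
    have e : j + m * ((n : ℤ) + 1) = j + m * n + m := by ring
    rw [e, hwm, ih, zpow_add_one₀ ht]; ring
  | pred n ih =>
    have h := hwm (j + m * (-(n : ℤ) - 1))
    have e : j + m * (-(n : ℤ) - 1) + m = j + m * -(n : ℤ) := by ring
    rw [e, ih] at h
    have e2 : t ^ (-(n : ℤ)) = t * t ^ (-(n : ℤ) - 1) := by
      rw [← zpow_one_add₀ ht]; congr 1; ring
    rw [e2, mul_assoc] at h
    exact (mul_left_cancel₀ ht h).symm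

/-- the seminorm for `X_m` is bounded by the one for `M` -/
theorem sem1m_le {m : ℕ} (hm : 0 < m) {μ : ℂ} (hμ : μ ≠ 0) {κ : ℤ} {w : ℤ → ℝ}
    (hw : ∀ j, 0 ≤ w j) (hwm : ∀ j, w (j + m) = ‖μ‖ * w j)
    {η : M → Fin 2 → EuclideanSpace ℂ ι} (hη : Reg1 0 κ η) (hc : HasCompactSupport η) :
    ∑ j ∈ Finset.range m, w j * D.p1 κ (per D m μ⁻¹ η) j ≤ ∑' j, w j * D.p1 κ η j := by
  have hm' : (0 : ℤ) < (m : ℤ) := by exact_mod_cast hm
  obtain ⟨R, hR⟩ := exists_suppIn (D := D) hc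
  set N : ℤ := m + R with hN
  have hμn : ‖μ‖ ≠ 0 := norm_ne_zero_iff.2 hμ
  set F : ℤ → ℝ := fun j => w j * D.p1 κ η j with hF
  have hF0 : ∀ j, 0 ≤ F j := fun j => mul_nonneg (hw j) (p1_nonneg κ η j)
  have h1 : ∀ j ∈ Finset.range m, w j * D.p1 κ (per D m μ⁻¹ η) j ≤
      ∑ k ∈ Finset.Icc (-N) N, F ((j : ℤ) - m * k) := by
    intro j hj
    have h2 : D.p1 κ (per D m μ⁻¹ η) j ≤
        ∑ k ∈ Finset.Icc (-N) N, ‖μ‖ ^ (-k) * D.p1 κ η ((j : ℤ) - m * k) := by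
      refine D.prof_le (Finset.sum_nonneg fun k _ => mul_nonneg (by positivity)
        (p1_nonneg κ η _)) fun x hx => ?_
      have hx' : |D.f x| + R ≤ N := by
        have hj' : ((j : ℕ) : ℝ) + 1 ≤ m := by exact_mod_cast Finset.mem_range.1 hj
        obtain ⟨h3, h4⟩ := hx
        have h5 : (0 : ℝ) ≤ ((j : ℤ) : ℝ) := by positivity
        have h6 : ((j : ℤ) : ℝ) + 1 ≤ m := by exact_mod_cast hj'
        rw [abs_of_nonneg (h5.trans h3), hN]
        push_cast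
        push_cast at h4 h6
        linarith
      have h7 : n1 D.h κ (per D m μ⁻¹ η) x = n1 D.h κ (fun y i => ∑ k ∈ Finset.Icc (-N) N,
          (fun (k : ℤ) (y : M) (i : Fin 2) => (μ⁻¹ ^ k • η (D.sh (-((m : ℤ) * k)) y)) i) k y i)
          x := by
        have h8 : per D m μ⁻¹ η x = fun i => ∑ k ∈ Finset.Icc (-N) N,
            (μ⁻¹ ^ k • η (D.sh (-((m : ℤ) * k)) x)) i := by
          rw [per_eq_sum hR hm' μ⁻¹ hx']
          funext i
          rw [Finset.sum_apply]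
        simp only [n1, nsq1]
        rw [h8]
      rw [h7]
      refine (H87.n1_sum_le D.herm.posDef κ _ _ x).trans (Finset.sum_le_sum fun k _ => ?_)
      have h9 : n1 D.h κ ((fun (k : ℤ) (y : M) (i : Fin 2) =>
          (μ⁻¹ ^ k • η (D.sh (-((m : ℤ) * k)) y)) i) k) x =
          ‖μ‖ ^ (-k) * n1 D.h κ η (D.sh (-((m : ℤ) * k)) x) := by
        have h10 := n1_smul (D := D) κ (μ⁻¹ ^ k) (fun y => η (D.sh (-((m : ℤ) * k)) y)) x
        rw [D.n1_comp_sh] at h10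
        have h11 : ‖μ⁻¹ ^ k‖ = ‖μ‖ ^ (-k) := by
          rw [norm_zpow, norm_inv, inv_zpow, zpow_neg]
        rw [h11] at h10
        exact h10
      rw [h9]
      refine mul_le_mul_of_nonneg_left (D.le_prof (cn1 hη) ?_) (by positivity)
      have := (D.sh_mem_slab (j := (j : ℤ)) (k := -((m : ℤ) * k)) (x := x)).2 hx
      rwa [← sub_eq_add_neg] at this
    refine (mul_le_mul_of_nonneg_left h2 (hw j)).trans (le_of_eq ?_)
    rw [Finset.mul_sum]
    refine Finset.sum_congr rfl fun k _ => ?_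
    simp only [hF]
    have h12 := wt_zpow hμn hwm (j : ℤ) (-k)
    have h13 : (j : ℤ) + m * -k = (j : ℤ) - m * k := by ring
    rw [h13] at h12
    rw [h12]; ring
  refine (Finset.sum_le_sum h1).trans ?_
  have h14 : ∑ j ∈ Finset.range m, ∑ k ∈ Finset.Icc (-N) N, F ((j : ℤ) - m * k) =
      ∑ i ∈ (Finset.range m ×ˢ Finset.Icc (-N) N).image
        (fun p : ℕ × ℤ => (p.1 : ℤ) - m * p.2), F i := by
    rw [Finset.sum_image, Finset.sum_product]
    rintro ⟨j, k⟩ h ⟨j', k'⟩ h' he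
    rw [Finset.mem_coe, Finset.mem_product, Finset.mem_range] at h h'
    simp only at he h h'
    have e1 : (j : ℤ) = j' := by
      have h15 : ((j : ℤ) - m * k) % m = j := by
        rw [Int.sub_mul_emod_self_left]
        exact Int.emod_eq_of_lt (by omega) (by omega)
      have h16 : ((j' : ℤ) - m * k') % m = j' := by
        rw [Int.sub_mul_emod_self_left]
        exact Int.emod_eq_of_lt (by omega) (by omega)
      rw [← h15, ← h16, he]
    have e2 : (m : ℤ) * k = m * k' := by linarith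
    have e3 : k = k' := mul_left_cancel₀ hm'.ne' e2
    rw [e3, Int.ofNat.inj e1]
  rw [h14]
  exact (summable_p1 hc w).sum_le_tsum _ fun j _ => hF0 j

/-- **functional on `X_m`** -/
theorem func_m {m : ℕ} (hm : 0 < m) {L : LB M ι} {a : M → Fin 2 → ℂ} (ha : Reg1 ∞ 0 a)
    (hp : PerBdl D m L a) {μ : ℂ} (hμ : μ ≠ 0) {r : M → EuclideanSpace ℂ ι}
    (hr : Reg2 ∞ 0 r) (hrE : D.Equiv m μ r) {w : ℤ → ℝ} (hw : ∀ j, 0 ≤ w j)
    (hwm : ∀ j, w (j + m) = ‖μ‖ * w j) {B : ℝ} (hB : 0 ≤ B)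
    (hrB : ∀ j, D.p2 0 r j ≤ B * w j) {C : ℝ} (hC : 0 ≤ C) (hT0 : D.T0m 1 L a m μ w C) :
    ∃ A : Test1 L 1 →ₗ[ℂ] ℂ, (∀ φ : Test0 L 1, A (D0 L ha 1 φ) = intX (pr r φ)) ∧
      (∀ η : Test1 L 1, ‖A η‖ ≤ 4 * VolC D * B * C *
        ∑' j, w j * D.p1 1 (η : M → Fin 2 → EuclideanSpace ℂ ι) j) ∧
      ∀ η η' : Test1 L 1, (∀ x, (η' : M → Fin 2 → EuclideanSpace ℂ ι) x =
        (η : M → Fin 2 → EuclideanSpace ℂ ι) (D.sh m x)) → A η' = μ⁻¹ * A η := by
  have hm' : (0 : ℤ) < (m : ℤ) := by exact_mod_cast hm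
  have hV := VolC_nonneg (D := D)
  obtain ⟨A, hA1, hA2⟩ := H413.duality (D0 L ha 1) (sem0m D L 1 hm μ⁻¹ hw)
    (sem1m D L 1 hm μ⁻¹ hw) (C := C) (M := 4 * VolC D * B) hC (by positivity)
    (fun φ => by
      have h := hT0 (per D m μ⁻¹ φ) (reg0_per hm' _ φ.2.2.2 φ.2.1)
        (hp.sec_per hm' _ φ.2.2.2 φ.2.2.1) (equiv_per (inv_ne_zero hμ) _)
      rw [hp.db0_per hm' _ φ.2.2.2 φ.2.1] at h
      exact h) (gfun L hr) (norm_gfun_le_m L hm hμ hr hrE hwm hrB)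
  refine ⟨A, hA1, fun η => (hA2 η).trans (mul_le_mul_of_nonneg_left
    (sem1m_le hm hμ hw hwm (η.2.1.of_le (by simp)) η.2.2.2) (by positivity)), ?_⟩
  intro η η' h
  have h1 : ‖A (η' - μ⁻¹ • η)‖ ≤ 0 := by
    refine (hA2 _).trans (le_of_eq ?_)
    have h2 : per D m μ⁻¹ ((η' - μ⁻¹ • η : Test1 L 1) : M → Fin 2 → EuclideanSpace ℂ ι) = 0 := by
      have h3 : ((η' - μ⁻¹ • η : Test1 L 1) : M → Fin 2 → EuclideanSpace ℂ ι) =
          (fun x => (η : M → Fin 2 → EuclideanSpace ℂ ι) (D.sh (m * 1) x)) +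
            (-μ⁻¹) • (η : M → Fin 2 → EuclideanSpace ℂ ι) := by
        funext x
        rw [mul_one, Submodule.coe_sub, Submodule.coe_smul, Pi.sub_apply, h x]
        simp only [Pi.smul_apply, Pi.add_apply]
        rw [sub_eq_add_neg, neg_smul]
      have hc1 : HasCompactSupport fun x => (η : M → Fin 2 → EuclideanSpace ℂ ι)
          (D.sh ((m : ℤ) * 1) x) := by
        have h4 : (fun x => (η : M → Fin 2 → EuclideanSpace ℂ ι) (D.sh ((m : ℤ) * 1) x)) =
            (η' : M → Fin 2 → EuclideanSpace ℂ ι) := by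
          funext x; rw [mul_one, h x]
        rw [h4]; exact η'.2.2.2
      have hc2 : HasCompactSupport ((-μ⁻¹) • (η : M → Fin 2 → EuclideanSpace ℂ ι)) :=
        (-μ⁻¹ • η : Test1 L 1).2.2.2
      rw [h3, per_add hm' _ hc1 hc2, per_comp_sh (inv_ne_zero hμ), per_smul, zpow_one, neg_smul,
        add_neg_cancel]
    change 4 * VolC D * B * C * ∑ j ∈ Finset.range m, w j * D.p1 1 (per D m μ⁻¹
      ((η' - μ⁻¹ • η : Test1 L 1) : M → Fin 2 → EuclideanSpace ℂ ι)) j = 0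
    rw [h2]
    have h5 : ∀ j, D.p1 1 (0 : M → Fin 2 → EuclideanSpace ℂ ι) j = 0 := by
      intro j
      have := p1_smul (D := D) 1 (0 : ℂ) (0 : M → Fin 2 → EuclideanSpace ℂ ι) j
      simpa using this
    simp only [h5, mul_zero, Finset.sum_const_zero]
  have h6 : A (η' - μ⁻¹ • η) = 0 := norm_le_zero_iff.1 h1
  rw [map_sub, map_smul, sub_eq_zero] at h6
  exact h6

end Vale.Agent.P267.H306
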