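import Vale.Agent.P267.H306.Per
import Vale.Agent.P267.H877.Iface
import Vale.Agent.P267.H413.Dual
import Vale.Agent.P267.H399.Calc2
import Vale.Agent.P267.H87.Norm

/-!
# P267 / XA-T2 (helper306): Hahn-Banach
-/

set_option linter.unusedVariables false
set_option linter.unusedSectionVars false

open scoped Manifold ContDiff ComplexConjugate Matrix ComplexOrder Topology Pointwise
open MeasureTheory Set Filter

noncomputable section

namespace Vale.Agent.P267.H306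

open FL XT

variable {M : Type} [TopologicalSpace M] [ChartedSpace C2 M] {D : XTData M}
variable {ι : Type} [Fintype ι] [DecidableEq ι]

/-! ### the pairing -/

/-- the pairing as a continuous bilinear map -/
def bpL : EuclideanSpace ℂ ι →L[ℂ] EuclideanSpace ℂ ι →L[ℂ] ℂ :=
  LinearMap.mkContinuous₂
    (LinearMap.mk₂ ℂ bp bp_add_left (fun c u v => by rw [bp_smul_left, smul_eq_mul])
      bp_add_right (fun c u v => by rw [bp_smul_right, smul_eq_mul])) 1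
    (fun u v => by
      simpa using norm_bp_le u v)

@[simp] theorem bpL_apply (u v : EuclideanSpace ℂ ι) : bpL u v = bp u v := rfl

/-- `∫ r ∧ φ` has density `pr r φ` -/
def pr (r φ : M → EuclideanSpace ℂ ι) (x : M) : ℂ := bp (r x) (φ x)

theorem n2_pr_le (h : M → Matrix (Fin 2) (Fin 2) ℂ) (hh : ∀ x, 0 < dh h x)
    (r φ : M → EuclideanSpace ℂ ι) (x : M) :
    n2 h 1 (pr r φ) x ≤ n2 h 0 r x * n0 h 1 φ x := by
  have e1 : dh h x ^ (-(((1 : ℤ) : ℝ) + 1) / 2) =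
      dh h x ^ (-(((0 : ℤ) : ℝ) + 1) / 2) * dh h x ^ (-((1 : ℤ) : ℝ) / 2) := by
    rw [← Real.rpow_add (hh x)]
    congr 1
    push_cast; ring
  rw [n2, n2, n0, e1, pr]
  have h1 := norm_bp_le (r x) (φ x)
  have h2 : 0 ≤ dh h x ^ (-(((0 : ℤ) : ℝ) + 1) / 2) * dh h x ^ (-((1 : ℤ) : ℝ) / 2) :=
    mul_nonneg (Real.rpow_nonneg (hh x).le _) (Real.rpow_nonneg (hh x).le _)
  calc ‖bp (r x) (φ x)‖ * (dh h x ^ (-(((0 : ℤ) : ℝ) + 1) / 2) * dh h x ^ (-((1 : ℤ) : ℝ) / 2))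
      ≤ (‖r x‖ * ‖φ x‖) *
        (dh h x ^ (-(((0 : ℤ) : ℝ) + 1) / 2) * dh h x ^ (-((1 : ℤ) : ℝ) / 2)) :=
        mul_le_mul_of_nonneg_right h1 h2
    _ = _ := by ring

theorem pr_add (r φ ψ : M → EuclideanSpace ℂ ι) : pr r (φ + ψ) = pr r φ + pr r ψ := by
  funext x; simp [pr, bp_add_right]

theorem pr_smul (r φ : M → EuclideanSpace ℂ ι) (c : ℂ) : pr r (c • φ) = c • pr r φ := by
  funext x; simp [pr, bp_smul_right]

theorem dh_pos {h : M → Matrix (Fin 2) (Fin 2) ℂ} (hh : IsHerm h) (x : M) : 0 < dh h x := by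
  have := (hh.posDef x).det_pos
  exact (Complex.lt_def.1 this).1

/-! ### profiles -/

section prof

variable {V : Type*} [NormedAddCommGroup V] [InnerProductSpace ℂ V]

theorem prof_smul {c : ℝ} (hc : 0 ≤ c) (n : M → ℝ) (j : ℤ) :
    D.prof (fun x => c * n x) j = c * D.prof n j := by
  have h : (fun x => c * n x) '' D.slab j = c • (n '' D.slab j) := by
    ext y
    simp only [mem_image, Set.mem_smul_set, smul_eq_mul]
    constructor
    · rintro ⟨x, hx, rfl⟩; exact ⟨_, ⟨x, hx, rfl⟩, rfl⟩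
    · rintro ⟨_, ⟨x, hx, rfl⟩, rfl⟩; exact ⟨x, hx, rfl⟩
  rw [XTData.prof, h, Real.sSup_smul_of_nonneg hc, smul_eq_mul, XTData.prof]

theorem prof_mono {n n' : M → ℝ} (hn' : Continuous n') (h0 : ∀ x, 0 ≤ n' x) {j : ℤ}
    (h : ∀ x ∈ D.slab j, n x ≤ n' x) : D.prof n j ≤ D.prof n' j :=
  D.prof_le (D.prof_nonneg h0 j) fun x hx => (h x hx).trans (D.le_prof hn' hx)

theorem prof_add_le {n n' n'' : M → ℝ} (hn : Continuous n) (hn' : Continuous n')
    (h0 : ∀ x, 0 ≤ n x) (h0' : ∀ x, 0 ≤ n' x) {j : ℤ}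
    (h : ∀ x ∈ D.slab j, n'' x ≤ n x + n' x) : D.prof n'' j ≤ D.prof n j + D.prof n' j :=
  D.prof_le (add_nonneg (D.prof_nonneg h0 j) (D.prof_nonneg h0' j)) fun x hx =>
    (h x hx).trans (add_le_add (D.le_prof hn hx) (D.le_prof hn' hx))

theorem prof_eq_zero {n : M → ℝ} {R : ℝ} (hn : ∀ x, R < |D.f x| → n x = 0) (h0 : ∀ x, 0 ≤ n x)
    {j : ℤ} (hj : R + 1 < |(j : ℝ)|) : D.prof n j = 0 := by
  refine le_antisymm (D.prof_le le_rfl fun x hx => ?_) (D.prof_nonneg h0 j)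
  rw [hn x]
  obtain ⟨h1, h2⟩ := hx
  have h3 : |(j : ℝ)| ≤ |D.f x| + 1 := by
    have : (j : ℝ) = D.f x - (D.f x - j) := by ring
    rw [this]
    refine (abs_sub _ _).trans (add_le_add le_rfl ?_)
    rw [abs_of_nonneg (by linarith)]
    linarith
  linarith

theorem prof_support_finite {n : M → ℝ} {R : ℝ} (hn : ∀ x, R < |D.f x| → n x = 0)
    (h0 : ∀ x, 0 ≤ n x) : (Function.support (D.prof n)).Finite := by
  obtain ⟨N, hN⟩ := exists_nat_ge (R + 1)
  refine (Set.finite_Icc (-(N : ℤ)) N).subset fun j hj => ?_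
  by_contra hc
  apply hj
  apply prof_eq_zero hn h0
  have h1 : (N : ℤ) < |j| := by
    by_contra h2
    exact hc (abs_le.1 (not_lt.1 h2))
  have h2 : ((N : ℤ) : ℝ) < ((|j| : ℤ) : ℝ) := by exact_mod_cast h1
  push_cast at h2
  linarith

theorem summable_mul_prof {n : M → ℝ} {R : ℝ} (hn : ∀ x, R < |D.f x| → n x = 0)
    (h0 : ∀ x, 0 ≤ n x) (w : ℤ → ℝ) : Summable fun j => w j * D.prof n j := by
  apply summable_of_hasFiniteSupport
  refine (prof_support_finite hn h0).subset fun j hj => ?_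
  intro h
  exact hj (by simp only [h, mul_zero])

end prof

/-! ### norms -/

section facts

variable {V : Type*} [NormedAddCommGroup V] [InnerProductSpace ℂ V]
variable [IsManifold 𝓘(ℂ, C2) ω M]

theorem cn0 {n : WithTop ℕ∞} {κ : ℤ} {s : M → V} (hs : Reg0 n κ s) : Continuous (n0 D.h κ s) :=
  H87.continuous_n0 D.herm hs
theorem cn1 {n : WithTop ℕ∞} {κ : ℤ} {s : M → Fin 2 → V} (hs : Reg1 n κ s) :
    Continuous (n1 D.h κ s) := H87.continuous_n1 D.herm hs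
theorem cn2 {n : WithTop ℕ∞} {κ : ℤ} {s : M → V} (hs : Reg2 n κ s) :
    Continuous (n2 D.h κ s) := H87.continuous_n2 D.herm hs
theorem n1_add_le (κ : ℤ) (s t : M → Fin 2 → V) (x : M) :
    n1 D.h κ (s + t) x ≤ n1 D.h κ s x + n1 D.h κ t x := H87.n1_add_le D.herm.posDef κ s t x
theorem n1_smul (κ : ℤ) (c : ℂ) (s : M → Fin 2 → V) (x : M) :
    n1 D.h κ (c • s) x = ‖c‖ * n1 D.h κ s x := H87.n1_smul D.herm.posDef κ (fun _ => c) s x

end facts

theorem n0_nonneg {V : Type*} [NormedAddCommGroup V] (κ : ℤ) (s : M → V) (x : M) :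
    0 ≤ n0 D.h κ s x := mul_nonneg (norm_nonneg _) (Real.rpow_nonneg (dh_pos D.herm x).le _)

theorem n1_nonneg {V : Type*} [NormedAddCommGroup V] [InnerProductSpace ℂ V] (κ : ℤ)
    (s : M → Fin 2 → V) (x : M) : 0 ≤ n1 D.h κ s x :=
  mul_nonneg (Real.sqrt_nonneg _) (Real.rpow_nonneg (dh_pos D.herm x).le _)

theorem n2_nonneg {V : Type*} [NormedAddCommGroup V] (κ : ℤ) (s : M → V) (x : M) :
    0 ≤ n2 D.h κ s x := mul_nonneg (norm_nonneg _) (Real.rpow_nonneg (dh_pos D.herm x).le _)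

theorem n0_add_le {V : Type*} [NormedAddCommGroup V] (κ : ℤ) (s t : M → V) (x : M) :
    n0 D.h κ (s + t) x ≤ n0 D.h κ s x + n0 D.h κ t x := by
  rw [n0, n0, n0, ← add_mul]
  exact mul_le_mul_of_nonneg_right (norm_add_le _ _) (Real.rpow_nonneg (dh_pos D.herm x).le _)

theorem n0_smul {V : Type*} [NormedAddCommGroup V] [NormedSpace ℂ V] (κ : ℤ) (c : ℂ) (s : M → V)
    (x : M) : n0 D.h κ (c • s) x = ‖c‖ * n0 D.h κ s x := by
  rw [n0, n0, Pi.smul_apply, norm_smul, mul_assoc]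

theorem n0_eq_zero {V : Type*} [NormedAddCommGroup V] (κ : ℤ) {s : M → V} {x : M} (h : s x = 0) :
    n0 D.h κ s x = 0 := by rw [n0, h, norm_zero, zero_mul]

theorem n1_eq_zero {V : Type*} [NormedAddCommGroup V] [InnerProductSpace ℂ V] (κ : ℤ)
    {s : M → Fin 2 → V} {x : M} (h : s x = 0) : n1 D.h κ s x = 0 := by
  rw [n1, nsq1, h]
  simp

section semi

variable [IsManifold 𝓘(ℂ, C2) ω M]
variable {V : Type*} [NormedAddCommGroup V] [InnerProductSpace ℂ V]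

theorem p0_add_le {κ : ℤ} {s t : M → V} (hs : Reg0 ∞ κ s) (ht : Reg0 ∞ κ t) (j : ℤ) :
    D.p0 κ (s + t) j ≤ D.p0 κ s j + D.p0 κ t j :=
  prof_add_le (cn0 hs) (cn0 ht) (n0_nonneg κ s) (n0_nonneg κ t) fun x _ => n0_add_le κ s t x

theorem p1_add_le {κ : ℤ} {s t : M → Fin 2 → V} (hs : Reg1 ∞ κ s) (ht : Reg1 ∞ κ t) (j : ℤ) :
    D.p1 κ (s + t) j ≤ D.p1 κ s j + D.p1 κ t j :=
  prof_add_le (cn1 hs) (cn1 ht) (n1_nonneg κ s) (n1_nonneg κ t) fun x _ => n1_add_le κ s t x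

theorem p0_smul (κ : ℤ) (c : ℂ) (s : M → V) (j : ℤ) :
    D.p0 κ (c • s) j = ‖c‖ * D.p0 κ s j := by
  rw [XTData.p0, XTData.p0, ← prof_smul (norm_nonneg c)]
  congr 1
  funext x
  exact n0_smul κ c s x

theorem p1_smul (κ : ℤ) (c : ℂ) (s : M → Fin 2 → V) (j : ℤ) :
    D.p1 κ (c • s) j = ‖c‖ * D.p1 κ s j := by
  rw [XTData.p1, XTData.p1, ← prof_smul (norm_nonneg c)]
  congr 1
  funext x
  exact n1_smul κ c s x

theorem p0_nonneg (κ : ℤ) (s : M → V) (j : ℤ) : 0 ≤ D.p0 κ s j := D.prof_nonneg (n0_nonneg κ s) j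
theorem p1_nonneg (κ : ℤ) (s : M → Fin 2 → V) (j : ℤ) : 0 ≤ D.p1 κ s j :=
  D.prof_nonneg (n1_nonneg κ s) j
theorem p2_nonneg (κ : ℤ) (s : M → V) (j : ℤ) : 0 ≤ D.p2 κ s j := D.prof_nonneg (n2_nonneg κ s) j

theorem summable_p0 {κ : ℤ} {s : M → V} (hs : HasCompactSupport s) (w : ℤ → ℝ) :
    Summable fun j => w j * D.p0 κ s j := by
  obtain ⟨R, hR⟩ := exists_suppIn (D := D) hs
  exact summable_mul_prof (fun x hx => n0_eq_zero κ (hR x hx)) (n0_nonneg κ s) w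

theorem summable_p1 {κ : ℤ} {s : M → Fin 2 → V} (hs : HasCompactSupport s) (w : ℤ → ℝ) :
    Summable fun j => w j * D.p1 κ s j := by
  obtain ⟨R, hR⟩ := exists_suppIn (D := D) hs
  exact summable_mul_prof (fun x hx => n1_eq_zero κ (hR x hx)) (n1_nonneg κ s) w

/-- weighted `l¹` seminorm on test sections -/
def sem0 (D : XTData M) (L : LB M ι) (κ : ℤ) {w : ℤ → ℝ} (hw : ∀ j, 0 ≤ w j) :
    Seminorm ℂ (Test0 L κ) :=
  Seminorm.of (fun φ => ∑' j, w j * D.p0 κ (φ : M → EuclideanSpace ℂ ι) j)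
    (fun φ ψ => by
      rw [← (summable_p0 φ.2.2.2 w).tsum_add (summable_p0 ψ.2.2.2 w)]
      refine Summable.tsum_le_tsum (fun j => ?_) (summable_p0 (φ + ψ).2.2.2 w)
        ((summable_p0 φ.2.2.2 w).add (summable_p0 ψ.2.2.2 w))
      rw [← mul_add]
      exact mul_le_mul_of_nonneg_left (p0_add_le φ.2.1 ψ.2.1 j) (hw j))
    (fun c φ => by
      rw [← tsum_mul_left]
      refine tsum_congr fun j => ?_
      change w j * D.p0 κ (c • (φ : M → EuclideanSpace ℂ ι)) j = _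
      rw [p0_smul]; ring)

/-- weighted `l¹` seminorm on test forms -/
def sem1 (D : XTData M) (L : LB M ι) (κ : ℤ) {w : ℤ → ℝ} (hw : ∀ j, 0 ≤ w j) :
    Seminorm ℂ (Test1 L κ) :=
  Seminorm.of (fun η => ∑' j, w j * D.p1 κ (η : M → Fin 2 → EuclideanSpace ℂ ι) j)
    (fun φ ψ => by
      rw [← (summable_p1 φ.2.2.2 w).tsum_add (summable_p1 ψ.2.2.2 w)]
      refine Summable.tsum_le_tsum (fun j => ?_) (summable_p1 (φ + ψ).2.2.2 w)
        ((summable_p1 φ.2.2.2 w).add (summable_p1 ψ.2.2.2 w))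
      rw [← mul_add]
      exact mul_le_mul_of_nonneg_left (p1_add_le φ.2.1 ψ.2.1 j) (hw j))
    (fun c φ => by
      rw [← tsum_mul_left]
      refine tsum_congr fun j => ?_
      change w j * D.p1 κ (c • (φ : M → Fin 2 → EuclideanSpace ℂ ι)) j = _
      rw [p1_smul]; ring)

/-- seminorm on test sections for `X_m` -/
def sem0m (D : XTData M) (L : LB M ι) (κ : ℤ) {m : ℕ} (hm : 0 < m) (μ : ℂ) {w : ℤ → ℝ}
    (hw : ∀ j, 0 ≤ w j) : Seminorm ℂ (Test0 L κ) :=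
  Seminorm.of (fun φ => ∑ j ∈ Finset.range m,
      w j * D.p0 κ (per D m μ (φ : M → EuclideanSpace ℂ ι)) j)
    (fun φ ψ => by
      rw [← Finset.sum_add_distrib]
      refine Finset.sum_le_sum fun j _ => ?_
      rw [← mul_add]
      refine mul_le_mul_of_nonneg_left ?_ (hw j)
      change D.p0 κ (per D m μ ((φ : M → EuclideanSpace ℂ ι) +
        (ψ : M → EuclideanSpace ℂ ι))) j ≤ _
      rw [per_add (by exact_mod_cast hm) μ φ.2.2.2 ψ.2.2.2]
      exact p0_add_le (reg0_per (by exact_mod_cast hm) μ φ.2.2.2 φ.2.1)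
        (reg0_per (by exact_mod_cast hm) μ ψ.2.2.2 ψ.2.1) j)
    (fun c φ => by
      rw [Finset.mul_sum]
      refine Finset.sum_congr rfl fun j _ => ?_
      change w j * D.p0 κ (per D m μ (c • (φ : M → EuclideanSpace ℂ ι))) j = _
      rw [per_smul, p0_smul]; ring)

/-- seminorm on test forms for `X_m` -/
def sem1m (D : XTData M) (L : LB M ι) (κ : ℤ) {m : ℕ} (hm : 0 < m) (μ : ℂ) {w : ℤ → ℝ}
    (hw : ∀ j, 0 ≤ w j) : Seminorm ℂ (Test1 L κ) :=
  Seminorm.of (fun φ => ∑ j ∈ Finset.range m,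
      w j * D.p1 κ (per D m μ (φ : M → Fin 2 → EuclideanSpace ℂ ι)) j)
    (fun φ ψ => by
      rw [← Finset.sum_add_distrib]
      refine Finset.sum_le_sum fun j _ => ?_
      rw [← mul_add]
      refine mul_le_mul_of_nonneg_left ?_ (hw j)
      change D.p1 κ (per D m μ ((φ : M → Fin 2 → EuclideanSpace ℂ ι) +
        (ψ : M → Fin 2 → EuclideanSpace ℂ ι))) j ≤ _
      rw [per_add (by exact_mod_cast hm) μ φ.2.2.2 ψ.2.2.2]
      exact p1_add_le (reg1_per (by exact_mod_cast hm) μ φ.2.2.2 φ.2.1)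
        (reg1_per (by exact_mod_cast hm) μ ψ.2.2.2 ψ.2.1) j)
    (fun c φ => by
      rw [Finset.mul_sum]
      refine Finset.sum_congr rfl fun j _ => ?_
      change w j * D.p1 κ (per D m μ (c • (φ : M → Fin 2 → EuclideanSpace ℂ ι))) j = _
      rw [per_smul, p1_smul]; ring)

end semi

end Vale.Agent.P267.H306
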