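import Vale.Agent.P267.H533.IntPos
import Vale.Agent.P267.H877.Trans

/-!
# P267 / XA-T2 (helper306): the integral is invariant under bijective chart preserving maps
-/

set_option linter.unusedVariables false
set_option linter.unusedSectionVars false

open scoped Manifold ContDiff ComplexConjugate Matrix ComplexOrder Topology
open MeasureTheory Set Filter

noncomputable section

namespace Vale.Agent.P267.H306

open FL XT H533

variable {X : Type*} [TopologicalSpace X] [ChartedSpace C2 X] [IsManifold 𝓘(ℂ, C2) ω X] [T2Space X]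

/-- smooth finite family subordinate to small neighbourhoods of the points of `K` -/
theorem exists_small_family {K : Set X} (hK : IsCompact K) {U : X → Set X}
    (hU : ∀ x, IsOpen (U x)) (hxU : ∀ x, x ∈ U x) :
    ∃ (N : ℕ) (g : Fin N → X) (ρ : Fin N → X → ℝ),
      (∀ i, RSm (ρ i)) ∧ (∀ i, HasCompactSupport (ρ i)) ∧
      (∀ i, tsupport (ρ i) ⊆ (chartAt C2 (g i)).source ∩ U (g i)) ∧ (∀ i x, 0 ≤ ρ i x) ∧
      ∀ x ∈ K, ∑ i, ρ i x = 1 := by
  classical
  have hb : ∀ x : X, ∃ χ : X → ℝ, RSm χ ∧ HasCompactSupport χ ∧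
      tsupport χ ⊆ (chartAt C2 (x : X)).source ∩ U x ∧
      (∀ y, 0 ≤ χ y ∧ χ y ≤ 1) ∧ ∀ᶠ y in 𝓝 (x : X), χ y = 1 := fun x =>
    exists_bump_at (hU x) (hxU x)
  choose χ h1 h2 h3 h4 h5 using hb
  obtain ⟨t, ht, htK⟩ := hK.elim_nhds_subcover (fun x => {y | χ x y = 1}) fun x _ => h5 x
  let g : Fin t.card → X := fun i => (t.equivFin.symm i : X)
  let ρ : Fin t.card → X → ℝ := fun i x => χ (g i) x * ∏ j ∈ Finset.univ.filter (· < i), (1 - χ (g j) x)
  have hsum : ∀ x, ∑ i, ρ i x = 1 - ∏ i, (1 - χ (g i) x) := by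
    intro x
    have := Finset.prod_one_sub_ordered (Finset.univ : Finset (Fin t.card)) (fun i => χ (g i) x)
    rw [this]
    simp only [ρ]
    ring
  have h01 : ∀ i x, 0 ≤ 1 - χ (g i) x ∧ 1 - χ (g i) x ≤ 1 := by
    intro i x
    have := h4 (g i) x
    constructor <;> linarith [this.1, this.2]
  refine ⟨t.card, g, ρ, ?_, ?_, ?_, ?_, ?_⟩
  · intro i
    exact (h1 (g i)).mul (RSm.prod _ fun j _ => (RSm.const 1).sub (h1 (g j)))
  · intro i
    exact (h2 (g i)).mul_right
  · intro i
    exact (tsupport_mul_subset_left).trans (h3 (g i))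
  · intro i x
    exact mul_nonneg (h4 (g i) x).1 (Finset.prod_nonneg fun j _ => (h01 j x).1)
  · intro x hx
    obtain ⟨y, hyt, hxy⟩ := mem_iUnion₂.1 (htK hx)
    rw [hsum]
    have hi : g (t.equivFin ⟨y, hyt⟩) = y := by
      simp [g]
    have h0 : ∏ i, (1 - χ (g i) x) = 0 := by
      apply Finset.prod_eq_zero (Finset.mem_univ (t.equivFin ⟨y, hyt⟩))
      rw [hi]
      have : χ y x = 1 := hxy
      rw [this, sub_self]
    rw [h0, sub_zero]

theorem reg2_cont_mul {κ : ℤ} {f : X → ℂ} (hf : Continuous f) {b : X → ℂ} (hb : Reg2 0 κ b) :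
    Reg2 0 κ fun x => f x * b x := by
  intro e he
  rw [loc2_mul', contDiffOn_zero]
  exact (hf.comp_continuousOn e.continuousOn_symm).mul (contDiffOn_zero.1 (hb e he))

/-- two additive functionals which agree on forms with small support agree -/
theorem eq_of_small {J J' : (X → ℂ) → ℂ}
    (hJ : ∀ (N : ℕ) (c : Fin N → X → ℂ), (∀ i, Reg2 0 1 (c i)) → (∀ i, HasCompactSupport (c i)) →
      J (fun x => ∑ i, c i x) = ∑ i, J (c i))
    (hJ' : ∀ (N : ℕ) (c : Fin N → X → ℂ), (∀ i, Reg2 0 1 (c i)) → (∀ i, HasCompactSupport (c i)) →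
      J' (fun x => ∑ i, c i x) = ∑ i, J' (c i))
    {U : X → Set X} (hU : ∀ x, IsOpen (U x)) (hxU : ∀ x, x ∈ U x)
    (h : ∀ x c, Reg2 0 1 c → HasCompactSupport c → tsupport c ⊆ (chartAt C2 x).source ∩ U x →
      J c = J' c) {b : X → ℂ} (hb : Reg2 0 1 b) (hc : HasCompactSupport b) : J b = J' b := by
  obtain ⟨N, g, ρ, h1, h2, h3, h4, h5⟩ := exists_small_family (K := tsupport b) hc hU hxU
  have hb' : b = fun x => ∑ i, (fun x => (ρ i x : ℂ) * b x) x := by
    funext x
    by_cases hx : x ∈ tsupport b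
    · have := h5 x hx
      simp only
      rw [← Finset.sum_mul, ← Complex.ofReal_sum, this, Complex.ofReal_one, one_mul]
    · simp [image_eq_zero_of_notMem_tsupport hx]
  have hL : ∀ i, Reg2 0 1 fun x => (ρ i x : ℂ) * b x := fun i =>
    reg2_cont_mul (Complex.continuous_ofReal.comp (h1 i).continuous) hb
  have hC : ∀ i, HasCompactSupport fun x => (ρ i x : ℂ) * b x := fun i => hc.mul_left
  rw [hb', hJ N _ hL hC, hJ' N _ hL hC]
  refine Finset.sum_congr rfl fun i _ => h (g i) _ (hL i) (hC i) ?_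
  refine (closure_mono ?_).trans (h3 i)
  intro x hx hx0
  apply hx
  simp only [hx0, Complex.ofReal_zero, zero_mul]

theorem intX_sum_fin {N : ℕ} {c : Fin N → X → ℂ} (h : ∀ i, Reg2 0 1 (c i))
    (hc : ∀ i, HasCompactSupport (c i)) : intX (fun x => ∑ i, c i x) = ∑ i, intX (c i) :=
  intX_sum Finset.univ (fun i _ => (h i).locInt) fun i _ => hc i

section homeo

variable {Y : Type*} [TopologicalSpace Y] [ChartedSpace C2 Y] [IsManifold 𝓘(ℂ, C2) ω Y] [T2Space Y]

/-- the integral is invariant under homeomorphisms which preserve the preferred charts -/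
theorem intX_comp_homeo (q : Y ≃ₜ X) (hq : ChartMap q) {b : X → ℂ} (hb : Reg2 0 1 b)
    (hc : HasCompactSupport b) : intX (fun y => b (q y)) = intX b := by
  have hcq : ∀ {c : X → ℂ}, HasCompactSupport c → HasCompactSupport fun y => c (q y) :=
    fun hc => hc.comp_homeomorph q
  -- the good neighbourhoods
  have hgood : ∀ y : Y, ∃ U : Set Y, IsOpen U ∧ y ∈ U ∧ U ⊆ (chartAt C2 y).source ∧
      ∀ z ∈ U, q z ∈ (chartAt C2 (q y)).source ∧ chartAt C2 (q y) (q z) = chartAt C2 y z ∧
        jac (chartAt C2 (q y)) (q z) = jac (chartAt C2 y) z := by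
    intro y
    have h1 := hq.germ y
    have h2 := hq.jac_eq y
    have h3 : ∀ᶠ z in 𝓝 y, q z ∈ (chartAt C2 (q y)).source :=
      hq.cont.continuousAt.eventually_mem
        ((chartAt C2 (q y)).open_source.mem_nhds (mem_chart_source C2 (q y)))
    have h4 : ∀ᶠ z in 𝓝 y, z ∈ (chartAt C2 y).source :=
      (chartAt C2 y).open_source.mem_nhds (mem_chart_source C2 y)
    obtain ⟨U, hU, hUo, hyU⟩ := eventually_nhds_iff.1 (h1.and (h2.and (h3.and h4)))
    exact ⟨U, hUo, hyU, fun z hz => (hU z hz).2.2.2, fun z hz =>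
      ⟨(hU z hz).2.2.1, (hU z hz).1, (hU z hz).2.1⟩⟩
  choose U hUo hyU hUs hUg using hgood
  refine (eq_of_small (J := intX) (J' := fun c => intX fun y => c (q y))
    (fun N c h h' => intX_sum_fin h h') (fun N c h h' => ?_)
    (U := fun x => q '' U (q.symm x)) (fun x => q.isOpenMap _ (hUo _))
    (fun x => ⟨q.symm x, hyU _, q.apply_symm_apply x⟩) (fun x c h h' hsub => ?_) hb hc).symm
  · exact intX_sum_fin (fun i => hq.reg2_comp (h i)) fun i => hcq (h' i)
  · obtain ⟨y, rfl⟩ := q.surjective x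
    simp only [q.symm_apply_apply] at hsub ⊢
    have hsub' : tsupport (fun z => c (q z)) ⊆ U y := by
      have : (fun z => c (q z)) = c ∘ q := rfl
      rw [this, tsupport_comp_eq_preimage c q]
      intro z hz
      obtain ⟨z', hz', he⟩ := (hsub hz).2
      rwa [← q.injective he]
    rw [intX_chart h.locInt h' (chart_mem_atlas C2 (q y)) (hsub.trans inter_subset_left),
      intX_chart (hq.reg2_comp h).locInt (hcq h') (chart_mem_atlas C2 y)
        (hsub'.trans (hUs y))]
    set e := chartAt C2 y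
    set e' := chartAt C2 (q y)
    have hS : MeasurableSet (e '' U y) :=
      (e.isOpen_image_of_subset_source (hUo y) (hUs y)).measurableSet
    have hS1 : e '' U y ⊆ e.target := by
      rintro _ ⟨z, hz, rfl⟩; exact e.map_source (hUs y hz)
    have hS2 : e '' U y ⊆ e'.target := by
      rintro _ ⟨z, hz, rfl⟩
      rw [← (hUg y z hz).2.1]
      exact e'.map_source (hUg y z hz).1
    have i1 : ∫ z in e.target, 4 * loc2 1 e (fun z => c (q z)) z =
        ∫ z in e '' U y, 4 * loc2 1 e (fun z => c (q z)) z := by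
      refine (setIntegral_eq_of_subset_of_forall_sdiff_eq_zero e.open_target.measurableSet hS1
        fun z hz => ?_)
      have : c (q (e.symm z)) = 0 := by
        by_contra hne
        exact hz.2 ⟨e.symm z, hsub' (subset_tsupport _ hne), e.right_inv hz.1⟩
      rw [loc2_eq_zero this, mul_zero]
    have i2 : ∫ z in e'.target, 4 * loc2 1 e' c z = ∫ z in e '' U y, 4 * loc2 1 e' c z := by
      refine (setIntegral_eq_of_subset_of_forall_sdiff_eq_zero e'.open_target.measurableSet hS2
        fun z hz => ?_)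
      have : c (e'.symm z) = 0 := by
        by_contra hne
        obtain ⟨z', hz', he⟩ := (hsub (subset_tsupport _ hne)).2
        refine hz.2 ⟨z', hz', ?_⟩
        rw [← (hUg y z' hz').2.1, he, e'.right_inv hz.1]
      rw [loc2_eq_zero this, mul_zero]
    rw [i1, i2]
    refine setIntegral_congr_fun hS fun w hw => ?_
    obtain ⟨z, hz, rfl⟩ := hw
    have hzs : z ∈ e.source := hUs y hz
    have h1 : e'.symm (e z) = q z := by
      rw [← (hUg y z hz).2.1, e'.left_inv (hUg y z hz).1]
    have h2 : jac e' (q z) = jac e z := (hUg y z hz).2.2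
    simp only [loc2_one, h1, e.left_inv hzs, h2]

end homeo

section sh

variable {M : Type} [TopologicalSpace M] [ChartedSpace C2 M] [IsManifold 𝓘(ℂ, C2) ω M] [T2Space M]

theorem intX_sh (D : XTData M) (k : ℤ) {b : M → ℂ} (hb : Reg2 0 1 b) (hc : HasCompactSupport b) :
    intX (fun x => b (D.sh k x)) = intX b :=
  intX_comp_homeo (D.γ ^ k) (D.chartMap_sh k) hb hc

end sh

end Vale.Agent.P267.H306
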