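import Vale.Agent.P267.H306.Test
import Vale.Agent.P267.H877.Trans

/-!
# P267 / XA-T2 (helper306): periodisation of compactly supported objects

`per m μ u x = ∑ₖ μ^k u(γ^{-mk} x)` satisfies `per(γ^m x) = μ per(x)`.
-/

set_option linter.unusedVariables false
set_option linter.unusedSectionVars false

open scoped Manifold ContDiff ComplexConjugate Matrix ComplexOrder Topology
open MeasureTheory Set Filter

noncomputable section

namespace Vale.Agent.P267.H306

open FL XT

variable {M : Type} [TopologicalSpace M] [ChartedSpace C2 M] (D : XTData M)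

section basic

variable {V : Type*} [AddCommGroup V] [Module ℂ V]

/-- periodisation -/
def per (m : ℤ) (μ : ℂ) (u : M → V) (x : M) : V :=
  ∑ᶠ k : ℤ, μ ^ k • u (D.sh (-(m * k)) x)

/-- `u` vanishes where `|f| > R` -/
def SuppIn (R : ℝ) (u : M → V) : Prop := ∀ x, R < |D.f x| → u x = 0

variable {D}

theorem f_continuous : Continuous D.f := by
  have h : Continuous fun x => (D.f x : ℂ) := by
    rw [continuous_iff_continuousAt]
    intro x
    have h1 := (D.f_smooth (chartAt C2 x) (chart_mem_atlas C2 x)).continuousOn.continuousAt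
      ((chartAt C2 x).open_target.mem_nhds (mem_chart_target C2 x))
    rw [LB.loc0_zero] at h1
    have h2 : ContinuousAt (chartAt C2 x) x :=
      (chartAt C2 x).continuousAt (mem_chart_source C2 x)
    have h3 := ContinuousAt.comp (g := (fun x => (D.f x : ℂ)) ∘ (chartAt C2 x).symm) h1 h2
    refine h3.congr ?_
    filter_upwards [(chartAt C2 x).open_source.mem_nhds (mem_chart_source C2 x)] with y hy
    simp only [Function.comp_apply, (chartAt C2 x).left_inv hy]
  have h1 := Complex.continuous_re.comp h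
  exact h1

theorem exists_suppIn {V : Type*} [AddCommGroup V] [Module ℂ V] {u : M → V}
    (hu : HasCompactSupport u) : ∃ R : ℕ, SuppIn D (R : ℝ) u := by
  obtain ⟨B, hB⟩ := (hu.isCompact.image f_continuous (f := D.f)).isBounded.exists_norm_le
  obtain ⟨R, hR⟩ := exists_nat_ge B
  refine ⟨R, fun x hx => ?_⟩
  by_contra hne
  have h1 : x ∈ tsupport u := subset_tsupport u hne
  have h2 := hB (D.f x) ⟨x, h1, rfl⟩
  rw [Real.norm_eq_abs] at h2
  linarith

theorem SuppIn.mono {R R' : ℝ} (h : R ≤ R') {u : M → V} (hu : SuppIn D R u) : SuppIn D R' u :=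
  fun x hx => hu x (lt_of_le_of_lt h hx)

theorem abs_le_of_ne {R : ℝ} {u : M → V} (hu : SuppIn D R u) {m : ℤ} (hm : 0 < m) {k : ℤ} {x : M}
    {N : ℤ} (hN : |D.f x| + R ≤ N) (h : u (D.sh (-(m * k)) x) ≠ 0) : k ∈ Finset.Icc (-N) N := by
  have h1 : |D.f (D.sh (-(m * k)) x)| ≤ R := by
    by_contra hc
    exact h (hu _ (not_le.1 hc))
  rw [D.f_sh] at h1
  have h2 : |((m * k : ℤ) : ℝ)| ≤ |D.f x| + R := by
    have : ((m * k : ℤ) : ℝ) = D.f x - (D.f x + ((-(m * k) : ℤ) : ℝ)) := by push_cast; ring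
    rw [this]
    exact (abs_sub _ _).trans (by linarith)
  have h3 : |((m * k : ℤ) : ℝ)| ≤ N := h2.trans hN
  have h4 : |m * k| ≤ N := by exact_mod_cast h3
  have h5 : |k| ≤ |m * k| := by
    rw [abs_mul]
    have : 1 ≤ |m| := by rw [abs_of_pos hm]; omega
    nlinarith [abs_nonneg k]
  have h6 := abs_le.1 (h5.trans h4)
  exact Finset.mem_Icc.2 h6

/-- on `|f| ≤ N - R` the periodisation is the finite sum over `|k| ≤ N` -/
theorem per_eq_sum {R : ℝ} {u : M → V} (hu : SuppIn D R u) {m : ℤ} (hm : 0 < m) (μ : ℂ) {x : M}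
    {N : ℤ} (hN : |D.f x| + R ≤ N) :
    per D m μ u x = ∑ k ∈ Finset.Icc (-N) N, μ ^ k • u (D.sh (-(m * k)) x) := by
  refine finsum_eq_sum_of_support_subset _ ?_
  intro k hk
  refine Finset.mem_coe.2 (abs_le_of_ne hu hm hN fun h => ?_)
  rw [Function.mem_support] at hk
  exact hk (by rw [h, smul_zero])

theorem nhds_abs_lt (x : M) {T : ℝ} (h : |D.f x| < T) : ∀ᶠ y in 𝓝 x, |D.f y| < T :=
  (f_continuous.abs).continuousAt.eventually (gt_mem_nhds h)

theorem per_eventually {R : ℝ} {u : M → V} (hu : SuppIn D R u) {m : ℤ} (hm : 0 < m) (μ : ℂ) {x : M}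
    {N : ℤ} (hN : |D.f x| + R < N) :
    per D m μ u =ᶠ[𝓝 x] ∑ k ∈ Finset.Icc (-N) N, μ ^ k • fun y => u (D.sh (-(m * k)) y) := by
  have h : |D.f x| < N - R := by linarith
  filter_upwards [nhds_abs_lt x h] with y hy
  rw [per_eq_sum hu hm μ (N := N) (by linarith), Finset.sum_apply]
  rfl

theorem per_add {m : ℤ} (hm : 0 < m) (μ : ℂ) {u v : M → V} (hu : HasCompactSupport u)
    (hv : HasCompactSupport v) : per D m μ (u + v) = per D m μ u + per D m μ v := by
  obtain ⟨R, hR⟩ := exists_suppIn (D := D) hu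
  obtain ⟨R', hR'⟩ := exists_suppIn (D := D) hv
  have h1 : SuppIn D (max R R' : ℝ) u := hR.mono (le_max_left _ _)
  have h2 : SuppIn D (max R R' : ℝ) v := hR'.mono (le_max_right _ _)
  have h3 : SuppIn D (max R R' : ℝ) (u + v) := fun x hx => by
    rw [Pi.add_apply, h1 x hx, h2 x hx, add_zero]
  funext x
  obtain ⟨N, hN⟩ := exists_nat_ge (|D.f x| + max (R : ℝ) R')
  have hN' : |D.f x| + max (R : ℝ) R' ≤ ((N : ℤ) : ℝ) := by exact_mod_cast hN
  rw [Pi.add_apply, per_eq_sum h1 hm μ hN', per_eq_sum h2 hm μ hN', per_eq_sum h3 hm μ hN',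
    ← Finset.sum_add_distrib]
  exact Finset.sum_congr rfl fun k _ => by rw [Pi.add_apply, smul_add]

theorem per_smul {m : ℤ} (μ : ℂ) (c : ℂ) (u : M → V) :
    per D m μ (c • u) = c • per D m μ u := by
  funext x
  rw [Pi.smul_apply, per, per, smul_finsum]
  exact finsum_congr fun k => by rw [Pi.smul_apply, smul_comm]

theorem equiv_per {m : ℤ} {μ : ℂ} (hμ : μ ≠ 0) (u : M → V) : D.Equiv m μ (per D m μ u) := by
  intro x
  rw [per, per, smul_finsum]
  have h : (fun k : ℤ => μ ^ k • u (D.sh (-(m * k)) (D.sh m x))) =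
      fun k : ℤ => (fun k : ℤ => μ • μ ^ k • u (D.sh (-(m * k)) x)) (k - 1) := by
    funext k
    change μ ^ k • u (D.sh (-(m * k)) (D.sh m x)) = μ • μ ^ (k - 1) • u (D.sh (-(m * (k - 1))) x)
    rw [← D.sh_add, smul_smul, ← zpow_one_add₀ hμ]
    congr 2
    · ring
    · congr 2; ring
  rw [h]
  exact finsum_comp_equiv (Equiv.subRight (1 : ℤ)) (f := fun k : ℤ => μ • μ ^ k •
    u (D.sh (-(m * k)) x))

/-- periodisation of a translate -/
theorem per_comp_sh {m : ℤ} {μ : ℂ} (hμ : μ ≠ 0) (u : M → V) (l : ℤ) :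
    per D m μ (fun x => u (D.sh (m * l) x)) = μ ^ l • per D m μ u := by
  funext x
  rw [Pi.smul_apply, per, per, smul_finsum]
  have h : (fun k : ℤ => μ ^ k • u (D.sh (m * l) (D.sh (-(m * k)) x))) =
      fun k : ℤ => (fun k : ℤ => μ ^ l • μ ^ k • u (D.sh (-(m * k)) x)) (k - l) := by
    funext k
    change μ ^ k • u (D.sh (m * l) (D.sh (-(m * k)) x)) =
      μ ^ l • μ ^ (k - l) • u (D.sh (-(m * (k - l))) x)
    rw [← D.sh_add, smul_smul, ← zpow_add₀ hμ]
    congr 2
    · ring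
    · congr 2; ring
  rw [h]
  exact finsum_comp_equiv (Equiv.subRight l) (f := fun k : ℤ => μ ^ l • μ ^ k •
    u (D.sh (-(m * k)) x))

theorem Equiv.zpow {m : ℤ} {μ : ℂ} (hμ : μ ≠ 0) {u : M → V} (hu : D.Equiv m μ u) (k : ℤ) (x : M) :
    u (D.sh (m * k) x) = μ ^ k • u x := by
  induction k with
  | zero => simp
  | succ n ih =>
    have h := hu (D.sh (m * n) x)
    rw [← D.sh_add] at h
    have e : m * ((n : ℤ) + 1) = m + m * n := by ring
    rw [e, h, ih, smul_smul, add_comm (n : ℤ) 1, zpow_one_add₀ hμ]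
  | pred n ih =>
    have h := hu (D.sh (m * (-(n : ℤ) - 1)) x)
    rw [← D.sh_add] at h
    have e : m + m * (-(n : ℤ) - 1) = m * -(n : ℤ) := by ring
    rw [e, ih] at h
    have e2 : μ ^ (-(n : ℤ)) = μ * μ ^ (-(n : ℤ) - 1) := by
      rw [← zpow_one_add₀ hμ]; congr 1; ring
    rw [e2, ← smul_smul] at h
    exact (smul_right_injective V hμ h).symm

end basic

/-! ### regularity -/

section reg

variable [IsManifold 𝓘(ℂ, C2) ω M] {D}

section V
variable {V : Type*} [NormedAddCommGroup V] [NormedSpace ℂ V]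

theorem reg0_sum {n : WithTop ℕ∞} {κ : ℤ} {α : Type*} (s : Finset α) {u : α → M → V}
    (h : ∀ i ∈ s, Reg0 n κ (u i)) : Reg0 n κ (∑ i ∈ s, u i) := by
  classical
  induction s using Finset.induction_on with
  | empty => simpa using reg0_zero
  | insert a s ha ih =>
    rw [Finset.sum_insert ha]
    exact reg0_add (h a (Finset.mem_insert_self _ _))
      (ih fun i hi => h i (Finset.mem_insert_of_mem hi))

theorem reg1_sum {n : WithTop ℕ∞} {κ : ℤ} {α : Type*} (s : Finset α) {u : α → M → Fin 2 → V}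
    (h : ∀ i ∈ s, Reg1 n κ (u i)) : Reg1 n κ (∑ i ∈ s, u i) := by
  classical
  induction s using Finset.induction_on with
  | empty => simpa using reg1_zero
  | insert a s ha ih =>
    rw [Finset.sum_insert ha]
    exact reg1_add (h a (Finset.mem_insert_self _ _))
      (ih fun i hi => h i (Finset.mem_insert_of_mem hi))

theorem reg0_of_eventually {n : WithTop ℕ∞} {κ : ℤ} {u : M → V}
    (h : ∀ x, ∃ v, Reg0 n κ v ∧ u =ᶠ[𝓝 x] v) : Reg0 n κ u := by
  rw [reg0_iff]
  intro x
  obtain ⟨v, hv, hx⟩ := h x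
  exact (hv.contDiffAt (chart_mem_atlas C2 x) (mem_chart_target C2 x)).congr_of_eventuallyEq
    (loc0_congr (mem_chart_source C2 x) hx)

theorem reg1_of_eventually {n : WithTop ℕ∞} {κ : ℤ} {u : M → Fin 2 → V}
    (h : ∀ x, ∃ v, Reg1 n κ v ∧ u =ᶠ[𝓝 x] v) : Reg1 n κ u := by
  rw [reg1_iff]
  intro x
  obtain ⟨v, hv, hx⟩ := h x
  exact (hv.contDiffAt (chart_mem_atlas C2 x) (mem_chart_target C2 x)).congr_of_eventuallyEq
    (loc1_congr (mem_chart_source C2 x) hx)

theorem reg0_per {n : WithTop ℕ∞} {κ : ℤ} {m : ℤ} (hm : 0 < m) (μ : ℂ) {u : M → V}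
    (hc : HasCompactSupport u) (hu : Reg0 n κ u) : Reg0 n κ (per D m μ u) := by
  obtain ⟨R, hR⟩ := exists_suppIn (D := D) hc
  refine reg0_of_eventually fun x => ?_
  obtain ⟨N, hN⟩ := exists_nat_gt (|D.f x| + R)
  refine ⟨_, ?_, per_eventually hR hm μ (N := N) (by exact_mod_cast hN)⟩
  exact reg0_sum _ fun k _ => reg0_smul _ ((D.chartMap_sh _).reg0_comp hu)

theorem reg1_per {n : WithTop ℕ∞} {κ : ℤ} {m : ℤ} (hm : 0 < m) (μ : ℂ) {u : M → Fin 2 → V}
    (hc : HasCompactSupport u) (hu : Reg1 n κ u) : Reg1 n κ (per D m μ u) := by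
  obtain ⟨R, hR⟩ := exists_suppIn (D := D) hc
  refine reg1_of_eventually fun x => ?_
  obtain ⟨N, hN⟩ := exists_nat_gt (|D.f x| + R)
  refine ⟨_, ?_, per_eventually hR hm μ (N := N) (by exact_mod_cast hN)⟩
  exact reg1_sum _ fun k _ => reg1_smul _ ((D.chartMap_sh _).reg1_comp hu)

end V

variable {ι : Type} [Fintype ι] [DecidableEq ι]

/-- `(L, a)` is `γ^m`-periodic -/
structure PerBdl (D : XTData M) (m : ℤ) (L : LB M ι) (a : M → Fin 2 → ℂ) : Prop where
  P_sh : ∀ x, L.P (D.sh m x) = L.P x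
  a_sh : ∀ x, a (D.sh m x) = a x

theorem sh_mul_invariant {α : Type*} {m : ℤ} {g : M → α} (h : ∀ x, g (D.sh m x) = g x) (k : ℤ)
    (x : M) : g (D.sh (m * k) x) = g x := by
  induction k with
  | zero => simp
  | succ n ih =>
    have e : m * ((n : ℤ) + 1) = m + m * n := by ring
    rw [e, D.sh_add, h, ih]
  | pred n ih =>
    have e : m * -(n : ℤ) = m + m * (-(n : ℤ) - 1) := by ring
    rw [e, D.sh_add, h] at ih
    exact ih

namespace PerBdl

variable {m : ℤ} {L : LB M ι} {a : M → Fin 2 → ℂ} (hp : PerBdl D m L a)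
include hp

theorem P_mul (k : ℤ) (x : M) : L.P (D.sh (m * k) x) = L.P x := sh_mul_invariant hp.P_sh k x
theorem a_mul (k : ℤ) (x : M) : a (D.sh (m * k) x) = a x := sh_mul_invariant hp.a_sh k x

theorem P_neg (k : ℤ) (x : M) : L.P (D.sh (-(m * k)) x) = L.P x := by
  have := hp.P_mul (-k) x
  rwa [mul_neg] at this

theorem a_neg (k : ℤ) (x : M) : a (D.sh (-(m * k)) x) = a x := by
  have := hp.a_mul (-k) x
  rwa [mul_neg] at this

theorem dual : PerBdl D m L.dual (-a) where
  P_sh x := by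
    change (L.P (D.sh m x))ᵀ = (L.P x)ᵀ
    rw [hp.P_sh]
  a_sh x := by
    change -(a (D.sh m x)) = -(a x)
    rw [hp.a_sh]

theorem shL_eq (k : ℤ) : D.shL (-(m * k)) L = L := by
  have h : (D.shL (-(m * k)) L).P = L.P := funext fun x => hp.P_neg k x
  cases L
  simp only [XTData.shL, ChartMap.lb] at h ⊢
  congr

theorem db0_comp (κ k : ℤ) (s : M → EuclideanSpace ℂ ι) (x : M) :
    L.db0 a κ (fun y => s (D.sh (-(m * k)) y)) x = L.db0 a κ s (D.sh (-(m * k)) x) := by
  rw [← (D.chartMap_sh (-(m * k))).lb_db0 L a κ s x]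
  change _ = (D.shL (-(m * k)) L).db0 (fun z => a (D.sh (-(m * k)) z)) κ _ x
  rw [hp.shL_eq]
  congr 1
  funext y
  exact (hp.a_neg k y).symm

theorem sec_comp (k : ℤ) {s : M → EuclideanSpace ℂ ι} (hs : L.Sec s) :
    L.Sec fun y => s (D.sh (-(m * k)) y) := fun x => by
  have := hs (D.sh (-(m * k)) x)
  rwa [hp.P_neg] at this

theorem sec1_comp (k : ℤ) {s : M → Fin 2 → EuclideanSpace ℂ ι} (hs : L.Sec1 s) :
    L.Sec1 fun y => s (D.sh (-(m * k)) y) := fun x i => by
  have := hs (D.sh (-(m * k)) x) i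
  rwa [hp.P_neg] at this

theorem sec_per (hm : 0 < m) (μ : ℂ) {u : M → EuclideanSpace ℂ ι} (hc : HasCompactSupport u)
    (hu : L.Sec u) : L.Sec (per D m μ u) := by
  obtain ⟨R, hR⟩ := exists_suppIn (D := D) hc
  intro x
  obtain ⟨N, hN⟩ := exists_nat_ge (|D.f x| + R)
  rw [per_eq_sum hR hm μ (N := N) (by exact_mod_cast hN), ← actL_apply, map_sum]
  refine Finset.sum_congr rfl fun k _ => ?_
  rw [actL_apply, act_smul]
  congr 1
  exact hp.sec_comp k hu x

theorem sec1_per (hm : 0 < m) (μ : ℂ) {u : M → Fin 2 → EuclideanSpace ℂ ι}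
    (hc : HasCompactSupport u) (hu : L.Sec1 u) : L.Sec1 (per D m μ u) := by
  obtain ⟨R, hR⟩ := exists_suppIn (D := D) hc
  intro x i
  obtain ⟨N, hN⟩ := exists_nat_ge (|D.f x| + R)
  rw [per_eq_sum hR hm μ (N := N) (by exact_mod_cast hN), ← actL_apply, Finset.sum_apply, map_sum]
  refine Finset.sum_congr rfl fun k _ => ?_
  rw [actL_apply, Pi.smul_apply, act_smul]
  congr 1
  exact hp.sec1_comp k hu x i

omit hp in
theorem db0_sum (L : LB M ι) (a : M → Fin 2 → ℂ) (κ : ℤ) {α : Type*} (s : Finset α)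
    {u : α → M → EuclideanSpace ℂ ι} (h : ∀ i ∈ s, Reg0 ∞ κ (u i)) :
    L.db0 a κ (∑ i ∈ s, u i) = ∑ i ∈ s, L.db0 a κ (u i) := by
  classical
  induction s using Finset.induction_on with
  | empty => simpa using db0_zero L a κ
  | insert b s hb ih =>
    rw [Finset.sum_insert hb, Finset.sum_insert hb, db0_add L a (n := ∞) (by simp)
      (h b (Finset.mem_insert_self _ _)) (reg0_sum s fun i hi => h i (Finset.mem_insert_of_mem hi)),
      ih fun i hi => h i (Finset.mem_insert_of_mem hi)]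

/-- `∂̄` commutes with periodisation -/
theorem db0_per (hm : 0 < m) (μ : ℂ) {κ : ℤ} {u : M → EuclideanSpace ℂ ι}
    (hc : HasCompactSupport u) (hu : Reg0 ∞ κ u) :
    L.db0 a κ (per D m μ u) = per D m μ (L.db0 a κ u) := by
  obtain ⟨R, hR⟩ := exists_suppIn (D := D) hc
  have hR' : SuppIn D R (L.db0 a κ u) := by
    intro x hx
    by_contra hne
    have h1 := support_db0_subset L a κ u hne
    have h2 : u =ᶠ[𝓝 x] 0 := by
      have : ∀ᶠ y in 𝓝 x, (R : ℝ) < |D.f y| :=
        (f_continuous.abs).continuousAt.eventually (lt_mem_nhds hx)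
      filter_upwards [this] with y hy using hR y hy
    exact (notMem_tsupport_iff_eventuallyEq.2 h2) h1
  funext x
  obtain ⟨N, hN⟩ := exists_nat_gt (|D.f x| + R)
  rw [db0_congr L a (per_eventually hR hm μ (N := N) (by exact_mod_cast hN)),
    db0_sum L a κ _ fun k _ => reg0_smul _ ((D.chartMap_sh _).reg0_comp hu),
    per_eq_sum hR' hm μ (N := N) (by exact_mod_cast hN.le), Finset.sum_apply]
  refine Finset.sum_congr rfl fun k _ => ?_
  rw [db0_smul L a (n := ∞) (by simp) _ ((D.chartMap_sh _).reg0_comp hu), Pi.smul_apply,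
    hp.db0_comp]

end PerBdl

end reg

end Vale.Agent.P267.H306
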