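import Vale.Agent.P267.H306.Alg

/-!
# P267 / XA-T2 (helper306): line bundle operators and test sections
-/

set_option linter.unusedVariables false
set_option linter.unusedSectionVars false

open scoped Manifold ContDiff ComplexConjugate Matrix ComplexOrder Topology
open MeasureTheory Set Filter

noncomputable section

namespace Vale.Agent.P267.H306

open FL XT

section act

variable {ι : Type} [Fintype ι] [DecidableEq ι]

theorem act_apply (A : Matrix ι ι ℂ) (v : EuclideanSpace ℂ ι) (i : ι) :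
    LB.act A v i = ∑ j, A i j * v j := rfl

theorem act_add (A : Matrix ι ι ℂ) (v w : EuclideanSpace ℂ ι) :
    LB.act A (v + w) = LB.act A v + LB.act A w := by
  ext i
  simp [act_apply, mul_add, Finset.sum_add_distrib]

theorem act_smul (A : Matrix ι ι ℂ) (c : ℂ) (v : EuclideanSpace ℂ ι) :
    LB.act A (c • v) = c • LB.act A v := by
  ext i
  simp only [act_apply, PiLp.smul_apply, smul_eq_mul, Finset.mul_sum]
  exact Finset.sum_congr rfl fun j _ => by ring

theorem act_zero (A : Matrix ι ι ℂ) : LB.act A (0 : EuclideanSpace ℂ ι) = 0 := by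
  ext i
  simp [act_apply]

theorem act_mul (A B : Matrix ι ι ℂ) (v : EuclideanSpace ℂ ι) :
    LB.act (A * B) v = LB.act A (LB.act B v) := by
  simp only [LB.act, Matrix.mulVec_mulVec]

/-- `act` as a continuous linear map in the vector -/
def actL (A : Matrix ι ι ℂ) : EuclideanSpace ℂ ι →L[ℂ] EuclideanSpace ℂ ι :=
  LinearMap.toContinuousLinearMap
    { toFun := LB.act A
      map_add' := act_add A
      map_smul' := act_smul A }

@[simp] theorem actL_apply (A : Matrix ι ι ℂ) (v : EuclideanSpace ℂ ι) :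
    actL A v = LB.act A v := rfl

theorem act_eq_sum (A : Matrix ι ι ℂ) (v : EuclideanSpace ℂ ι) :
    LB.act A v = ∑ i, ∑ j, A i j • actL (Matrix.single i j 1) v := by
  ext k
  have h : ∀ i j : ι, (A i j • actL (Matrix.single i j 1) v) k =
      if i = k then A i j * v j else 0 := by
    intro i j
    simp only [PiLp.smul_apply, actL_apply, act_apply, Matrix.single_apply, smul_eq_mul]
    by_cases hik : i = k
    · simp [hik]
    · simp [hik]
  have h2 : (∑ i, ∑ j, A i j • actL (Matrix.single i j 1) v) k =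
      ∑ i, ∑ j, (A i j • actL (Matrix.single i j 1) v) k := by
    simp
  rw [h2, act_apply, Finset.sum_congr rfl fun i _ => Finset.sum_congr rfl fun j _ => h i j]
  rw [Finset.sum_eq_single k (fun i _ hik => Finset.sum_eq_zero fun j _ => if_neg hik)
    (fun hk => absurd (Finset.mem_univ k) hk)]
  exact Finset.sum_congr rfl fun j _ => (if_pos rfl).symm

end act

variable {M : Type} [TopologicalSpace M] [ChartedSpace C2 M]
variable {ι : Type} [Fintype ι] [DecidableEq ι]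

theorem contDiffOn_act {n : WithTop ℕ∞} {U : Set C2} {A : C2 → Matrix ι ι ℂ}
    {g : C2 → EuclideanSpace ℂ ι} (hA : ∀ i j, ContDiffOn ℝ n (fun z => A z i j) U)
    (hg : ContDiffOn ℝ n g U) : ContDiffOn ℝ n (fun z => LB.act (A z) (g z)) U := by
  have h : (fun z => LB.act (A z) (g z)) =
      fun z => ∑ i, ∑ j, A z i j • actL (Matrix.single i j 1) (g z) := by
    funext z; exact act_eq_sum _ _
  rw [h]
  refine ContDiffOn.sum fun i _ => ContDiffOn.sum fun j _ => (hA i j).smul ?_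
  exact ((actL (Matrix.single i j (1 : ℂ))).restrictScalars ℝ).contDiff.comp_contDiffOn hg

theorem loc0_act (κ : ℤ) (e : Ch M) (A : M → Matrix ι ι ℂ) (s : M → EuclideanSpace ℂ ι) (z : C2) :
    loc0 κ e (fun x => LB.act (A x) (s x)) z = LB.act (A (e.symm z)) (loc0 κ e s z) := by
  simp only [loc0, act_smul]

theorem loc1_act (κ : ℤ) (e : Ch M) (A : M → Matrix ι ι ℂ) (s : M → Fin 2 → EuclideanSpace ℂ ι)
    (z : C2) (i : Fin 2) :
    loc1 κ e (fun x i => LB.act (A x) (s x i)) z i = LB.act (A (e.symm z)) (loc1 κ e s z i) := by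
  simp only [loc1, act_smul, act_add, Fin.sum_univ_two]

theorem loc2_act (κ : ℤ) (e : Ch M) (A : M → Matrix ι ι ℂ) (s : M → EuclideanSpace ℂ ι) (z : C2) :
    loc2 κ e (fun x => LB.act (A x) (s x)) z = LB.act (A (e.symm z)) (loc2 κ e s z) := by
  simp only [loc2, act_smul]

theorem reg0_coord {n : WithTop ℕ∞} {A : M → Matrix ι ι ℂ} (hA : ∀ i j, Reg0 n 0 fun x => A x i j)
    {e : Ch M} (he : e ∈ atlas C2 M) (i j : ι) :
    ContDiffOn ℝ n (fun z => A (e.symm z) i j) e.target := by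
  have := hA i j e he
  rwa [LB.loc0_zero] at this

theorem reg0_act {n : WithTop ℕ∞} {κ : ℤ} {A : M → Matrix ι ι ℂ}
    (hA : ∀ i j, Reg0 n 0 fun x => A x i j) {s : M → EuclideanSpace ℂ ι} (hs : Reg0 n κ s) :
    Reg0 n κ fun x => LB.act (A x) (s x) := by
  intro e he
  refine (contDiffOn_act (reg0_coord hA he) (hs e he)).congr fun z _ => loc0_act κ e A s z

theorem reg1_act {n : WithTop ℕ∞} {κ : ℤ} {A : M → Matrix ι ι ℂ}
    (hA : ∀ i j, Reg0 n 0 fun x => A x i j) {s : M → Fin 2 → EuclideanSpace ℂ ι}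
    (hs : Reg1 n κ s) : Reg1 n κ fun x i => LB.act (A x) (s x i) := by
  intro e he
  refine contDiffOn_pi.2 fun i => ?_
  refine (contDiffOn_act (reg0_coord hA he) (contDiffOn_pi.1 (hs e he) i)).congr
    fun z _ => loc1_act κ e A s z i

theorem reg2_act {n : WithTop ℕ∞} {κ : ℤ} {A : M → Matrix ι ι ℂ}
    (hA : ∀ i j, Reg0 n 0 fun x => A x i j) {s : M → EuclideanSpace ℂ ι} (hs : Reg2 n κ s) :
    Reg2 n κ fun x => LB.act (A x) (s x) := by
  intro e he
  refine (contDiffOn_act (reg0_coord hA he) (hs e he)).congr fun z _ => loc2_act κ e A s z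

section smul

variable {V : Type*} [NormedAddCommGroup V] [NormedSpace ℂ V]

/-- product of a scalar `(0,1)`-form and a `K^κ ⊗ V`-valued function -/
theorem reg1_smul_fun {n : WithTop ℕ∞} {κ : ℤ} {a : M → Fin 2 → ℂ} {s : M → V}
    (ha : Reg1 n 0 a) (hs : Reg0 n κ s) : Reg1 n κ fun x i => a x i • s x := by
  intro e he
  refine contDiffOn_pi.2 fun i => ?_
  refine ((contDiffOn_pi.1 (ha e he) i).smul (hs e he)).congr fun z _ => ?_
  change loc1 κ e (fun x i => a x i • s x) z i = loc1 0 e a z i • loc0 κ e s z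
  simp only [loc1, loc0, Fin.sum_univ_two, zpow_zero, one_smul, smul_eq_mul]
  module

/-- wedge of a scalar `(0,1)`-form and a `K^κ ⊗ V`-valued `(0,1)`-form -/
theorem reg2_wedge {n : WithTop ℕ∞} {κ : ℤ} {a : M → Fin 2 → ℂ} {w : M → Fin 2 → V}
    (ha : Reg1 n 0 a) (hw : Reg1 n κ w) :
    Reg2 n κ fun x => a x 0 • w x 1 - a x 1 • w x 0 := by
  intro e he
  have h0 := contDiffOn_pi.1 (ha e he) 0
  have h1 := contDiffOn_pi.1 (ha e he) 1
  have k0 := contDiffOn_pi.1 (hw e he) 0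
  have k1 := contDiffOn_pi.1 (hw e he) 1
  refine ((h0.smul k1).sub (h1.smul k0)).congr fun z _ => ?_
  change loc2 κ e (fun x => a x 0 • w x 1 - a x 1 • w x 0) z =
    loc1 0 e a z 0 • loc1 κ e w z 1 - loc1 0 e a z 1 • loc1 κ e w z 0
  simp only [loc1, loc2, Fin.sum_univ_two, zpow_zero, one_smul, Matrix.det_fin_two, map_sub,
    map_mul, smul_eq_mul]
  module

end smul

section mfd

variable [IsManifold 𝓘(ℂ, C2) ω M]

theorem reg1_db0 (L : LB M ι) {a : M → Fin 2 → ℂ} (ha : Reg1 ∞ 0 a) {κ : ℤ}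
    {s : M → EuclideanSpace ℂ ι} (hs : Reg0 ∞ κ s) : Reg1 ∞ κ (L.db0 a κ s) := by
  have h1 := reg1_act (κ := κ) L.smooth (reg1_dbar0 hs)
  exact reg1_add h1 (reg1_smul_fun ha hs)

theorem db0_add (L : LB M ι) (a : M → Fin 2 → ℂ) {n : WithTop ℕ∞} (hn : n ≠ 0) {κ : ℤ}
    {s t : M → EuclideanSpace ℂ ι} (hs : Reg0 n κ s) (ht : Reg0 n κ t) :
    L.db0 a κ (s + t) = L.db0 a κ s + L.db0 a κ t := by
  funext x i
  simp only [LB.db0, dbar0_add hn hs ht, Pi.add_apply, act_add]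
  module

theorem db0_smul (L : LB M ι) (a : M → Fin 2 → ℂ) {n : WithTop ℕ∞} (hn : n ≠ 0) {κ : ℤ}
    (c : ℂ) {s : M → EuclideanSpace ℂ ι} (hs : Reg0 n κ s) :
    L.db0 a κ (c • s) = c • L.db0 a κ s := by
  funext x i
  simp only [LB.db0, dbar0_smul hn c hs, Pi.smul_apply, act_smul]
  module

theorem db0_congr (L : LB M ι) (a : M → Fin 2 → ℂ) {κ : ℤ} {x : M}
    {s t : M → EuclideanSpace ℂ ι} (h : s =ᶠ[𝓝 x] t) : L.db0 a κ s x = L.db0 a κ t x := by
  funext i
  simp only [LB.db0, dbar0_congr h, h.eq_of_nhds]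

theorem db0_zero (L : LB M ι) (a : M → Fin 2 → ℂ) (κ : ℤ) :
    L.db0 a κ (0 : M → EuclideanSpace ℂ ι) = 0 := by
  have h := db0_smul L a (n := 1) (κ := κ) one_ne_zero 0 (reg0_zero (M := M))
  rw [zero_smul, zero_smul] at h
  exact h

theorem support_db0_subset (L : LB M ι) (a : M → Fin 2 → ℂ) (κ : ℤ)
    (s : M → EuclideanSpace ℂ ι) : Function.support (L.db0 a κ s) ⊆ tsupport s := by
  intro x hx
  by_contra hxs
  apply hx
  have h : s =ᶠ[𝓝 x] 0 := notMem_tsupport_iff_eventuallyEq.1 hxs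
  rw [db0_congr L a h, db0_zero]
  rfl

theorem tsupport_db0_subset (L : LB M ι) (a : M → Fin 2 → ℂ) (κ : ℤ)
    (s : M → EuclideanSpace ℂ ι) : tsupport (L.db0 a κ s) ⊆ tsupport s :=
  closure_minimal (support_db0_subset L a κ s) (isClosed_tsupport s)

theorem sec1_db0 (L : LB M ι) (a : M → Fin 2 → ℂ) (κ : ℤ) {s : M → EuclideanSpace ℂ ι}
    (hs : L.Sec s) : L.Sec1 (L.db0 a κ s) := by
  intro x i
  simp only [LB.db0, act_add, act_smul]
  rw [← act_mul, L.idem, hs x]

end mfd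

/-! ### test sections -/

theorem sec_add (L : LB M ι) {s t : M → EuclideanSpace ℂ ι} (hs : L.Sec s) (ht : L.Sec t) :
    L.Sec (s + t) := fun x => by rw [Pi.add_apply, act_add, hs x, ht x]

theorem sec_smul (L : LB M ι) (c : ℂ) {s : M → EuclideanSpace ℂ ι} (hs : L.Sec s) :
    L.Sec (c • s) := fun x => by rw [Pi.smul_apply, act_smul, hs x]

theorem sec_zero (L : LB M ι) : L.Sec (0 : M → EuclideanSpace ℂ ι) := fun x => act_zero _

theorem sec1_add (L : LB M ι) {s t : M → Fin 2 → EuclideanSpace ℂ ι} (hs : L.Sec1 s)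
    (ht : L.Sec1 t) : L.Sec1 (s + t) := fun x i => by
  rw [Pi.add_apply, Pi.add_apply, act_add, hs x, ht x]

theorem sec1_smul (L : LB M ι) (c : ℂ) {s : M → Fin 2 → EuclideanSpace ℂ ι} (hs : L.Sec1 s) :
    L.Sec1 (c • s) := fun x i => by rw [Pi.smul_apply, Pi.smul_apply, act_smul, hs x]

theorem sec1_zero (L : LB M ι) : L.Sec1 (0 : M → Fin 2 → EuclideanSpace ℂ ι) :=
  fun x i => act_zero _

/-- test sections: smooth compactly supported sections of `K^κ ⊗ L` -/
def Test0 (L : LB M ι) (κ : ℤ) : Submodule ℂ (M → EuclideanSpace ℂ ι) where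
  carrier := {φ | Reg0 ∞ κ φ ∧ L.Sec φ ∧ HasCompactSupport φ}
  add_mem' h h' := ⟨reg0_add h.1 h'.1, sec_add L h.2.1 h'.2.1, h.2.2.add h'.2.2⟩
  zero_mem' := ⟨reg0_zero, sec_zero L, HasCompactSupport.zero⟩
  smul_mem' c _ h := ⟨reg0_smul c h.1, sec_smul L c h.2.1,
    h.2.2.mono fun x hx hx' => hx (by simp only [Pi.smul_apply, hx', smul_zero])⟩

/-- test forms: smooth compactly supported `(0,1)`-forms with values in `K^κ ⊗ L` -/
def Test1 (L : LB M ι) (κ : ℤ) : Submodule ℂ (M → Fin 2 → EuclideanSpace ℂ ι) where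
  carrier := {η | Reg1 ∞ κ η ∧ L.Sec1 η ∧ HasCompactSupport η}
  add_mem' h h' := ⟨reg1_add h.1 h'.1, sec1_add L h.2.1 h'.2.1, h.2.2.add h'.2.2⟩
  zero_mem' := ⟨reg1_zero, sec1_zero L, HasCompactSupport.zero⟩
  smul_mem' c _ h := ⟨reg1_smul c h.1, sec1_smul L c h.2.1,
    h.2.2.mono fun x hx hx' => hx (by simp only [Pi.smul_apply, hx', smul_zero])⟩

/-- bilinear pairing of `L` and its dual -/
def bp (u v : EuclideanSpace ℂ ι) : ℂ := ∑ i, u i * v i

theorem bp_add_left (u u' v : EuclideanSpace ℂ ι) : bp (u + u') v = bp u v + bp u' v := by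
  simp [bp, add_mul, Finset.sum_add_distrib]

theorem bp_add_right (u v v' : EuclideanSpace ℂ ι) : bp u (v + v') = bp u v + bp u v' := by
  simp [bp, mul_add, Finset.sum_add_distrib]

theorem bp_smul_left (c : ℂ) (u v : EuclideanSpace ℂ ι) : bp (c • u) v = c * bp u v := by
  simp [bp, Finset.mul_sum, mul_assoc]

theorem bp_smul_right (c : ℂ) (u v : EuclideanSpace ℂ ι) : bp u (c • v) = c * bp u v := by
  simp only [bp, PiLp.smul_apply, smul_eq_mul, Finset.mul_sum]
  exact Finset.sum_congr rfl fun i _ => by ring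

@[simp] theorem bp_zero_right (u : EuclideanSpace ℂ ι) : bp u 0 = 0 := by simp [bp]
@[simp] theorem bp_zero_left (u : EuclideanSpace ℂ ι) : bp 0 u = 0 := by simp [bp]

theorem norm_bp_le (u v : EuclideanSpace ℂ ι) : ‖bp u v‖ ≤ ‖u‖ * ‖v‖ := by
  have h1 : bp u v = inner ℂ (WithLp.toLp 2 fun i => conj (u i)) v := by
    simp only [bp, PiLp.inner_apply, RCLike.inner_apply, Complex.conj_conj]
    exact Finset.sum_congr rfl fun i _ => by ring
  have h2 : ‖(WithLp.toLp 2 fun i => conj (u i) : EuclideanSpace ℂ ι)‖ = ‖u‖ := by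
    simp [EuclideanSpace.norm_eq]
  rw [h1, ← h2]
  exact norm_inner_le_norm _ _

section mfd

variable [IsManifold 𝓘(ℂ, C2) ω M]

/-- `∂̄ : Test0 → Test1` -/
def D0 (L : LB M ι) {a : M → Fin 2 → ℂ} (ha : Reg1 ∞ 0 a) (κ : ℤ) :
    Test0 L κ →ₗ[ℂ] Test1 L κ where
  toFun φ := ⟨L.db0 a κ φ, reg1_db0 L ha φ.2.1, sec1_db0 L a κ φ.2.2.1,
    φ.2.2.2.mono' ((subset_tsupport _).trans (tsupport_db0_subset L a κ φ))⟩
  map_add' φ ψ := Subtype.ext (db0_add L a (by simp) φ.2.1 ψ.2.1)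
  map_smul' c φ := Subtype.ext (db0_smul L a (by simp) c φ.2.1)

@[simp] theorem D0_coe (L : LB M ι) {a : M → Fin 2 → ℂ} (ha : Reg1 ∞ 0 a) (κ : ℤ)
    (φ : Test0 L κ) : (D0 L ha κ φ : M → Fin 2 → EuclideanSpace ℂ ι) = L.db0 a κ φ := rfl

end mfd

end Vale.Agent.P267.H306
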