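import Vale.Agent.P267.H306.HB
import Vale.Agent.P267.H306.Inv

/-!
# P267 / XA-T2 (helper306): bounds for integrals on the covering, unfolding
-/

set_option linter.unusedVariables false
set_option linter.unusedSectionVars false

open scoped Manifold ContDiff ComplexConjugate Matrix ComplexOrder Topology
open MeasureTheory Set Filter

noncomputable section

namespace Vale.Agent.P267.H306

open FL XT

variable {M : Type} [TopologicalSpace M] [ChartedSpace C2 M] {D : XTData M}
variable {ι : Type} [Fintype ι] [DecidableEq ι]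

/-! ### the tent function -/

/-- `max 0 (1 - |t|)` -/
def tent (t : ℝ) : ℝ := max 0 (1 - |t|)

theorem tent_nonneg (t : ℝ) : 0 ≤ tent t := le_max_left _ _

theorem tent_le_one (t : ℝ) : tent t ≤ 1 := by
  have := abs_nonneg t
  exact max_le (by norm_num) (by linarith)

theorem continuous_tent : Continuous tent :=
  continuous_const.max (continuous_const.sub continuous_abs)

theorem tent_eq_zero {t : ℝ} (h : 1 ≤ |t|) : tent t = 0 := max_eq_left (by linarith)

theorem abs_lt_of_tent {t : ℝ} (h : tent t ≠ 0) : |t| < 1 := by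
  by_contra hc
  exact h (tent_eq_zero (not_lt.1 hc))

theorem tent_sum (t : ℝ) {s : Finset ℤ} (h0 : ⌊t⌋ ∈ s) (h1 : ⌊t⌋ + 1 ∈ s) :
    ∑ k ∈ s, tent (t - k) = 1 := by
  have hf := Int.floor_le t
  have hf' := Int.lt_floor_add_one t
  rw [Finset.sum_eq_add (⌊t⌋) (⌊t⌋ + 1) (by omega) ?_ (fun h => absurd h0 h)
    (fun h => absurd h1 h)]
  · have e0 : tent (t - (⌊t⌋ : ℤ)) = 1 - (t - ⌊t⌋) := by
      rw [tent, abs_of_nonneg (by linarith)]
      exact max_eq_right (by linarith)
    have e1 : tent (t - ((⌊t⌋ + 1 : ℤ) : ℝ)) = t - ⌊t⌋ := by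
      rw [tent]
      push_cast
      rw [abs_of_nonpos (by linarith)]
      rw [max_eq_right (by linarith)]
      ring
    rw [e0, e1]; ring
  · rintro k _ ⟨hk0, hk1⟩
    apply tent_eq_zero
    rcases lt_or_gt_of_ne hk0 with h | h
    · have : (k : ℝ) + 1 ≤ ⌊t⌋ := by exact_mod_cast h
      rw [abs_of_nonneg (by linarith)]; linarith
    · have h2 : ⌊t⌋ + 1 < k := lt_of_le_of_ne h (Ne.symm hk1)
      have : ((⌊t⌋ : ℤ) : ℝ) + 1 + 1 ≤ k := by exact_mod_cast h2
      rw [abs_of_nonpos (by linarith)]; linarith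

/-! ### the volume form -/

section vol

variable [IsManifold 𝓘(ℂ, C2) ω M]

theorem det_im_zero {h : M → Matrix (Fin 2) (Fin 2) ℂ} (hh : IsHerm h) (x : M) :
    ((dh h x : ℝ) : ℂ) = (h x).det := by
  have h2 := (Complex.lt_def.1 (hh.posDef x).det_pos).2
  apply Complex.ext
  · simp [dh]
  · simpa using h2

/-- `det h` is a smooth `(2,2)`-form -/
theorem reg2_dh : Reg2 ∞ 1 fun x : M => ((dh D.h x : ℝ) : ℂ) := by
  intro e he
  have h1 : ∀ z ∈ e.target, loc2 1 e (fun x : M => ((dh D.h x : ℝ) : ℂ)) z =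
      (loc11 e D.h z).det := by
    intro z hz
    have h2 := H87.loc11_source (e.map_target hz) D.h
    rw [e.right_inv hz] at h2
    have h3 : ((jac e (e.symm z)).map conj).det = conj (jac e (e.symm z)).det := by
      have := (RingHom.map_det (starRingEnd ℂ) (jac e (e.symm z)))
      rw [this]; rfl
    rw [h2, Matrix.det_mul, Matrix.det_mul, Matrix.det_transpose, h3, loc2,
      det_im_zero D.herm, zpow_one, smul_eq_mul, smul_eq_mul]
    ring
  refine ContDiffOn.congr ?_ h1
  simp only [Matrix.det_fin_two]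
  exact ((D.herm.smooth e he 0 0).mul (D.herm.smooth e he 1 1)).sub
    ((D.herm.smooth e he 0 1).mul (D.herm.smooth e he 1 0))

theorem n2_one (b : M → ℂ) (x : M) : n2 D.h 1 b x = ‖b x‖ * (dh D.h x)⁻¹ := by
  rw [n2]
  congr 1
  rw [← Real.rpow_neg_one]
  congr 1
  push_cast; norm_num

theorem norm_eq_n2 (b : M → ℂ) (x : M) : ‖b x‖ = n2 D.h 1 b x * dh D.h x := by
  rw [n2_one, mul_assoc, inv_mul_cancel₀ (dh_pos D.herm x).ne', mul_one]

theorem dh_sh (k : ℤ) (x : M) : dh D.h (D.sh k x) = dh D.h x := by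
  rw [dh, D.h_sh, ← dh]

/-- the cut-off `tent (f - j)` -/
def cut (D : XTData M) (j : ℤ) (x : M) : ℝ := tent (D.f x - j)

theorem cut_nonneg (j : ℤ) (x : M) : 0 ≤ cut D j x := tent_nonneg _

theorem continuous_cut (j : ℤ) : Continuous (cut D j) :=
  continuous_tent.comp (f_continuous.sub continuous_const)

theorem cut_sh (j k : ℤ) (x : M) : cut D j (D.sh k x) = cut D (j - k) x := by
  rw [cut, cut, D.f_sh]
  congr 1
  push_cast; ring

theorem compact_cut [T2Space M] (j : ℤ) : HasCompactSupport (cut D j) := by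
  refine (D.f_proper (j - 1) (j + 1)).of_isClosed_subset (isClosed_tsupport _)
    (closure_minimal ?_ (D.f_proper (j - 1) (j + 1)).isClosed)
  intro x hx
  have h := abs_lt.1 (abs_lt_of_tent (t := D.f x - j) hx)
  constructor <;> linarith [h.1, h.2]

variable [T2Space M]

/-- the volume of a period (with the cut-off) -/
def VolC (D : XTData M) : ℝ := (intX fun x => ((cut D 0 x * dh D.h x : ℝ) : ℂ)).re

theorem reg2_cut_dh (c : ℝ) : Reg2 0 1 fun x : M => ((c * (cut D 0 x * dh D.h x) : ℝ) : ℂ) := by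
  have h1 : (fun x : M => ((c * (cut D 0 x * dh D.h x) : ℝ) : ℂ)) =
      fun x => ((c * cut D 0 x : ℝ) : ℂ) * ((dh D.h x : ℝ) : ℂ) := by
    funext x; push_cast; ring
  rw [h1]
  exact reg2_cont_mul (Complex.continuous_ofReal.comp
    (continuous_const.mul (continuous_cut 0))) ((reg2_dh (D := D)).of_le (by simp))

theorem compact_cut_dh (c : ℝ) :
    HasCompactSupport fun x : M => ((c * (cut D 0 x * dh D.h x) : ℝ) : ℂ) := by
  refine (compact_cut (D := D) 0).mono fun x hx h0 => hx ?_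
  simp only [h0]
  simp

theorem intX_cut_dh (c : ℝ) :
    (intX fun x : M => ((c * (cut D 0 x * dh D.h x) : ℝ) : ℂ)).re = c * VolC D := by
  have h1 : (fun x : M => ((c * (cut D 0 x * dh D.h x) : ℝ) : ℂ)) =
      fun x => (c : ℂ) * ((cut D 0 x * dh D.h x : ℝ) : ℂ) := by
    funext x; push_cast; ring
  have h2 := reg2_cut_dh (D := D) 1
  have h3 := compact_cut_dh (D := D) 1
  simp only [one_mul] at h2 h3
  rw [h1, H533.intX_const_mul h2.locInt h3, Complex.re_ofReal_mul, VolC]

theorem VolC_nonneg : 0 ≤ VolC D := by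
  have h2 := reg2_cut_dh (D := D) 1
  have h3 := compact_cut_dh (D := D) 1
  simp only [one_mul] at h2 h3
  exact H533.intX_re_nonneg h2.locInt h3 fun x =>
    mul_nonneg (tent_nonneg _) (dh_pos D.herm x).le

/-- forms cut off to `|f| < 1` -/
theorem norm_intX_cut_le {b : M → ℂ} (hb : Reg2 0 1 b) {B : ℝ}
    (hB : ∀ x, |D.f x| < 1 → n2 D.h 1 b x ≤ B) :
    ‖intX fun x => (cut D 0 x : ℂ) * b x‖ ≤ B * VolC D := by
  have hL : Reg2 0 1 fun x => (cut D 0 x : ℂ) * b x :=
    reg2_cont_mul (Complex.continuous_ofReal.comp (continuous_cut 0)) hb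
  have hC : HasCompactSupport fun x => (cut D 0 x : ℂ) * b x := by
    refine (compact_cut (D := D) 0).mono fun x hx h0 => hx ?_
    simp only [h0]
    simp
  refine (H533.norm_intX_le hL.locInt hC).trans ?_
  rw [← intX_cut_dh (D := D) B]
  refine H533.intX_mono hL.locInt.norm (H533.hasCompactSupport_norm' hC)
    (reg2_cut_dh (D := D) B).locInt (compact_cut_dh B) fun x => ?_
  rw [norm_mul, Complex.norm_real, Real.norm_of_nonneg (cut_nonneg 0 x), norm_eq_n2 (D := D)]
  by_cases h : cut D 0 x = 0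
  · simp [h]
  · have h1 : |D.f x| < 1 := by
      have := abs_lt_of_tent (t := D.f x - ((0 : ℤ) : ℝ)) h
      simpa using this
    have h2 := hB x h1
    have h3 : 0 ≤ cut D 0 x * dh D.h x := mul_nonneg (tent_nonneg _) (dh_pos D.herm x).le
    calc cut D 0 x * (n2 D.h 1 b x * dh D.h x) = n2 D.h 1 b x * (cut D 0 x * dh D.h x) := by ring
      _ ≤ B * (cut D 0 x * dh D.h x) := mul_le_mul_of_nonneg_right h2 h3

/-- one unit of length -/
theorem norm_intX_cutj_le {b : M → ℂ} (hb : Reg2 0 1 b) (j : ℤ) :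
    ‖intX fun x => (cut D j x : ℂ) * b x‖ ≤
      (D.prof (n2 D.h 1 b) j + D.prof (n2 D.h 1 b) (j - 1)) * VolC D := by
  have hL : Reg2 0 1 fun x => (cut D j x : ℂ) * b x :=
    reg2_cont_mul (Complex.continuous_ofReal.comp (continuous_cut j)) hb
  have hC : HasCompactSupport fun x => (cut D j x : ℂ) * b x := by
    refine (compact_cut (D := D) j).mono fun x hx h0 => hx ?_
    simp only [h0]
    simp
  rw [← intX_sh D j hL hC]
  simp only [cut_sh, sub_self]
  refine norm_intX_cut_le ((D.chartMap_sh j).reg2_comp hb) fun x hx => ?_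
  rw [D.n2_comp_sh]
  have h0 := D.prof_nonneg (H87.n2_nonneg D.herm.posDef 1 b) j
  have h1 := D.prof_nonneg (H87.n2_nonneg D.herm.posDef 1 b) (j - 1)
  have hcont := cn2 (D := D) hb
  rw [abs_lt] at hx
  rcases le_or_gt 0 (D.f x) with h | h
  · have : D.sh j x ∈ D.slab j := by
      constructor <;> rw [D.f_sh] <;> linarith [hx.2]
    linarith [D.le_prof hcont this]
  · have : D.sh j x ∈ D.slab (j - 1) := by
      constructor <;> rw [D.f_sh] <;> push_cast <;> linarith [hx.1]
    linarith [D.le_prof hcont this]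

theorem floor_mem_Icc {t : ℝ} {N : ℤ} (h : |t| + 1 ≤ N) :
    ⌊t⌋ ∈ Finset.Icc (-N) N ∧ ⌊t⌋ + 1 ∈ Finset.Icc (-N) N := by
  have h1 := Int.floor_le t
  have h2 := Int.lt_floor_add_one t
  have h3 := neg_abs_le t
  have h4 := le_abs_self t
  have h5 : ((-N : ℤ) : ℝ) ≤ ((⌊t⌋ : ℤ) : ℝ) := by push_cast; linarith
  have h6 : ((⌊t⌋ + 1 : ℤ) : ℝ) ≤ N := by push_cast; linarith
  have h7 : -N ≤ ⌊t⌋ := by exact_mod_cast h5
  have h8 : ⌊t⌋ + 1 ≤ N := by exact_mod_cast h6
  constructor <;> rw [Finset.mem_Icc] <;> constructor <;> omega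

/-- **integrals are bounded by the sum of the profile** -/
theorem norm_intX_le_tsum {b : M → ℂ} (hb : Reg2 0 1 b) (hc : HasCompactSupport b) :
    ‖intX b‖ ≤ 2 * VolC D * ∑' j, D.prof (n2 D.h 1 b) j := by
  obtain ⟨R, hR⟩ := exists_suppIn (D := D) hc
  obtain ⟨N, hN⟩ : ∃ N : ℤ, (R : ℝ) + 1 ≤ N := ⟨R + 1, by push_cast; exact le_rfl⟩
  have hsplit : b = fun x => ∑ j ∈ Finset.Icc (-N) N, (fun x => (cut D j x : ℂ) * b x) x := by
    funext x
    by_cases hx : (R : ℝ) < |D.f x|
    · simp [hR x hx]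
    · have h1 : |D.f x| + 1 ≤ N := by linarith
      obtain ⟨h2, h3⟩ := floor_mem_Icc h1
      have h4 := tent_sum (D.f x) h2 h3
      simp only
      rw [← Finset.sum_mul, ← Complex.ofReal_sum]
      change b x = ((∑ k ∈ Finset.Icc (-N) N, tent (D.f x - k) : ℝ) : ℂ) * b x
      rw [h4, Complex.ofReal_one, one_mul]
  have hL : ∀ j, Reg2 0 1 fun x => (cut D j x : ℂ) * b x := fun j =>
    reg2_cont_mul (Complex.continuous_ofReal.comp (continuous_cut j)) hb
  have hC : ∀ j, HasCompactSupport fun x => (cut D j x : ℂ) * b x := fun j => hc.mul_left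
  have h1 : intX b = ∑ j ∈ Finset.Icc (-N) N, intX fun x => (cut D j x : ℂ) * b x := by
    conv_lhs => rw [hsplit]
    exact H533.intX_sum _ (fun j _ => (hL j).locInt) fun j _ => hC j
  have hsum : Summable fun j => D.prof (n2 D.h 1 b) j := by
    have := summable_mul_prof (D := D) (R := R) (n := n2 D.h 1 b)
      (fun x hx => by rw [n2, hR x hx]; simp) (H87.n2_nonneg D.herm.posDef 1 b) (fun _ => 1)
    simpa using this
  have h0 := fun j => D.prof_nonneg (H87.n2_nonneg D.herm.posDef 1 b) j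
  rw [h1]
  refine (norm_sum_le _ _).trans ?_
  refine (Finset.sum_le_sum fun j _ => norm_intX_cutj_le hb j).trans ?_
  rw [← Finset.sum_mul, Finset.sum_add_distrib]
  have h2 : ∑ j ∈ Finset.Icc (-N) N, D.prof (n2 D.h 1 b) j ≤ ∑' j, D.prof (n2 D.h 1 b) j :=
    hsum.sum_le_tsum _ fun j _ => h0 j
  have h3 : ∑ j ∈ Finset.Icc (-N) N, D.prof (n2 D.h 1 b) (j - 1) ≤
      ∑' j, D.prof (n2 D.h 1 b) j := by
    have e : ∑' j, D.prof (n2 D.h 1 b) j = ∑' j, D.prof (n2 D.h 1 b) (j - 1) :=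
      ((Equiv.subRight (1 : ℤ)).tsum_eq (D.prof (n2 D.h 1 b))).symm
    rw [e]
    exact ((Equiv.subRight (1 : ℤ)).summable_iff.2 hsum).sum_le_tsum _ fun j _ => h0 _
  have hV := VolC_nonneg (D := D)
  nlinarith

end vol

end Vale.Agent.P267.H306
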